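import Vale.Agent.P088.R2.H509.S3.Ek

/-!
# P088, stage 4: the two-sided comparison of energies in solution coordinates (all `N`)
-/

set_option linter.all false

open Bundle Manifold MeasureTheory Set Filter Topology
open scoped ContDiff

noncomputable section

namespace Vale.Agent.P088.R2.H509.S4

open Vale.Agent.P088 Vale.Agent.P088.EYM Vale.Agent.P088.EYM.O
open Vale.Agent.P088.R2.H509.S3

universe u

section Ell

variable {n N : ℕ} [NeZero n]

/-- the zeroth order part of the `H¹` density -/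
def nd (L : LD n N) (c d : E n → Fib N) (y : E n) : ℂ :=
  (√(L.g y).det : ℂ) * inner ℂ (c y) (L.h y (d y))

theorem ell_bB {L : LD n N} {D K : Set (E n)} (hL : L.Ok D) (hK : IsCompact K) (hKD : K ⊆ D) :
    ∃ b : ℝ, 0 ≤ b ∧ ∀ y ∈ K, ∀ j, ‖L.B j y‖ ≤ b := by
  have h1 : ∀ j, ∃ b, ∀ y ∈ K, ‖L.B j y‖ ≤ b := fun j =>
    hK.exists_bound_of_continuousOn ((hL.B_smooth j).continuousOn.mono hKD)
  choose b hb using h1
  refine ⟨∑ j, |b j|, Finset.sum_nonneg fun j _ => abs_nonneg _, fun y hy j => ?_⟩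
  exact ((hb j y hy).trans (le_abs_self _)).trans
    (Finset.single_le_sum (f := fun j => |b j|) (fun j _ => abs_nonneg _) (Finset.mem_univ j))

theorem ell_bg {L : LD n N} {D K : Set (E n)} (hD : RelOpen D) (hL : L.Ok D) (hK : IsCompact K)
    (hKD : K ⊆ D) : ∃ b : ℝ, 0 ≤ b ∧ ∀ y ∈ K, ∀ j k, |gg L.g j k y| ≤ b := by
  have h1 : ∀ j k, ∃ b, ∀ y ∈ K, ‖gg L.g j k y‖ ≤ b := fun j k =>
    hK.exists_bound_of_continuousOn
      ((hD.gg_smooth hL.g_smooth hL.g_pos j k).continuousOn.mono hKD)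
  choose b hb using h1
  refine ⟨∑ j, ∑ k, |b j k|, Finset.sum_nonneg fun j _ => Finset.sum_nonneg fun k _ =>
    abs_nonneg _, fun y hy j k => ?_⟩
  have h2 := hb j k y hy
  rw [Real.norm_eq_abs] at h2
  refine (h2.trans (le_abs_self _)).trans ?_
  refine (Finset.single_le_sum (f := fun k => |b j k|) (fun k _ => abs_nonneg _)
    (Finset.mem_univ k)).trans ?_
  exact Finset.single_le_sum (f := fun j => ∑ k, |b j k|)
    (fun j _ => Finset.sum_nonneg fun k _ => abs_nonneg _) (Finset.mem_univ j)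

theorem ell_det {L : LD n N} {D K : Set (E n)} (hD : RelOpen D) (hL : L.Ok D)
    (hK : IsCompact K) (hKD : K ⊆ D) :
    ∃ m M : ℝ, 0 < m ∧ 0 < M ∧ ∀ y ∈ K, m ≤ √(L.g y).det ∧ √(L.g y).det ≤ M := by
  have hc : ContinuousOn (fun y => √(L.g y).det) K := by
    have h1 : ContinuousOn (fun y => (L.g y).det) D := by
      have h2 : ContinuousOn L.g D := by
        refine continuousOn_pi.2 fun i => continuousOn_pi.2 fun j => ?_
        exact (hL.g_smooth i j).continuousOn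
      exact Continuous.comp_continuousOn (Continuous.matrix_det continuous_id) h2
    exact (h1.mono hKD).sqrt
  obtain ⟨m, hm, hm'⟩ := hK.exists_forall_le' hc (a := 0) fun y hy =>
    Real.sqrt_pos.2 (hL.g_pos y (hKD hy)).det_pos
  obtain ⟨M, hM⟩ := hK.exists_bound_of_continuousOn hc
  refine ⟨m, max M 1, hm, lt_max_of_lt_right one_pos, fun y hy => ⟨hm' y hy, ?_⟩⟩
  exact ((le_abs_self _).trans (hM y hy)).trans (le_max_left _ _)

/-- **Ellipticity**, pointwise on compact sets. -/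
theorem ell_two {L : LD n N} {D K : Set (E n)} (hD : RelOpen D) (hL : L.Ok D)
    (hK : IsCompact K) (hKD : K ⊆ D) :
    ∃ a C : ℝ, 0 < a ∧ 0 < C ∧ ∀ y ∈ K, ∀ c : E n → Fib N,
      a * (‖c y‖ ^ 2 + ∑ j, ‖pd j c y‖ ^ 2) ≤ (ed L c c y).re + (nd L c c y).re ∧
      (ed L c c y).re + (nd L c c y).re ≤ C * (‖c y‖ ^ 2 + ∑ j, ‖pd j c y‖ ^ 2) := by
  obtain ⟨a₁, ha₁, hlow⟩ := APoin_Q_low hD hL hK hKD
  obtain ⟨m, M, hm, hM, hh⟩ := APoin_h_bd hL hK hKD
  obtain ⟨b, hb, hB⟩ := ell_bB hL hK hKD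
  obtain ⟨G, hG, hg⟩ := ell_bg hD hL hK hKD
  obtain ⟨d, d', hd, hd', hdet⟩ := ell_det hD hL hK hKD
  set ν : ℝ := (n : ℝ) with hν
  have hν0 : 0 < ν := by
    have : 0 < n := Nat.pos_of_ne_zero (NeZero.ne n)
    rw [hν]
    exact_mod_cast this
  -- pointwise quantities
  have key : ∀ y ∈ K, ∀ c : E n → Fib N,
      (∀ j, ‖pd j c y‖ ^ 2 ≤ 2 * ‖nab L j c y‖ ^ 2 + 2 * b ^ 2 * ‖c y‖ ^ 2) ∧
      (∀ j, ‖nab L j c y‖ ^ 2 ≤ 2 * ‖pd j c y‖ ^ 2 + 2 * b ^ 2 * ‖c y‖ ^ 2) ∧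
      (d * m * ‖c y‖ ^ 2 ≤ (nd L c c y).re) ∧ (nd L c c y).re ≤ d' * M * ‖c y‖ ^ 2 := by
    intro y hy c
    have e1 : ∀ j, ‖L.B j y (c y)‖ ≤ b * ‖c y‖ := fun j =>
      ((L.B j y).le_opNorm _).trans (mul_le_mul_of_nonneg_right (hB y hy j) (norm_nonneg _))
    have e2 : ∀ v w : Fib N, ‖w‖ ≤ b * ‖c y‖ → ‖v‖ ^ 2 ≤ 2 * ‖v + w‖ ^ 2 + 2 * b ^ 2 * ‖c y‖ ^ 2 := by
      intro v w hw
      have h1 : ‖v‖ ≤ ‖v + w‖ + b * ‖c y‖ := by
        have h2 : v = (v + w) - w := by abel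
        calc ‖v‖ = ‖(v + w) - w‖ := by rw [← h2]
          _ ≤ ‖v + w‖ + ‖w‖ := norm_sub_le _ _
          _ ≤ _ := by linarith
      have h3 : 0 ≤ ‖v‖ := norm_nonneg _
      have h4 : ‖v‖ ^ 2 ≤ (‖v + w‖ + b * ‖c y‖) ^ 2 := pow_le_pow_left₀ h3 h1 2
      nlinarith [sq_nonneg (‖v + w‖ - b * ‖c y‖)]
    refine ⟨fun j => ?_, fun j => ?_, ?_, ?_⟩
    · exact e2 (pd j c y) (L.B j y (c y)) (e1 j)
    · have h1 := e2 (nab L j c y) (-(L.B j y (c y))) (by rw [norm_neg]; exact e1 j)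
      have h2 : nab L j c y + -(L.B j y (c y)) = pd j c y := by
        unfold nab; abel
      rwa [h2] at h1
    · have h1 : (nd L c c y).re = √(L.g y).det * (inner ℂ (c y) (L.h y (c y)) : ℂ).re := by
        unfold nd; rw [Complex.re_ofReal_mul]
      rw [h1]
      have h2 := (hh y hy).2 (c y)
      have h3 := (hdet y hy).1
      have h4 : 0 ≤ m * ‖c y‖ ^ 2 := by positivity
      calc d * m * ‖c y‖ ^ 2 = d * (m * ‖c y‖ ^ 2) := by ring
        _ ≤ √(L.g y).det * (m * ‖c y‖ ^ 2) := mul_le_mul_of_nonneg_right h3 h4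
        _ ≤ _ := mul_le_mul_of_nonneg_left h2 (Real.sqrt_nonneg _)
    · have h1 : (nd L c c y).re = √(L.g y).det * (inner ℂ (c y) (L.h y (c y)) : ℂ).re := by
        unfold nd; rw [Complex.re_ofReal_mul]
      rw [h1]
      have h2 : (inner ℂ (c y) (L.h y (c y)) : ℂ).re ≤ M * ‖c y‖ ^ 2 := by
        refine (Complex.re_le_norm _).trans ((norm_inner_le_norm _ _).trans ?_)
        have h5 := ((L.h y).le_opNorm (c y)).trans
          (mul_le_mul_of_nonneg_right (hh y hy).1 (norm_nonneg _))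
        calc ‖c y‖ * ‖L.h y (c y)‖ ≤ ‖c y‖ * (M * ‖c y‖) :=
              mul_le_mul_of_nonneg_left h5 (norm_nonneg _)
          _ = M * ‖c y‖ ^ 2 := by ring
      have h4 : 0 ≤ M * ‖c y‖ ^ 2 := by positivity
      calc √(L.g y).det * (inner ℂ (c y) (L.h y (c y)) : ℂ).re ≤
            √(L.g y).det * (M * ‖c y‖ ^ 2) := mul_le_mul_of_nonneg_left h2 (Real.sqrt_nonneg _)
        _ ≤ d' * (M * ‖c y‖ ^ 2) := mul_le_mul_of_nonneg_right (hdet y hy).2 h4
        _ = _ := by ring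
  -- the constants
  set a : ℝ := min (a₁ / (2 * ν)) (d * m / (1 + 2 * ν * b ^ 2)) with ha
  have ha0 : 0 < a := lt_min (by positivity) (by positivity)
  have haa : a * (2 * ν) ≤ a₁ := by
    have h1 : a ≤ a₁ / (2 * ν) := min_le_left _ _
    rwa [le_div_iff₀ (by positivity)] at h1
  have hab : a * (1 + 2 * ν * b ^ 2) ≤ d * m := by
    have h1 : a ≤ d * m / (1 + 2 * ν * b ^ 2) := min_le_right _ _
    rwa [le_div_iff₀ (by positivity)] at h1
  set C₁ : ℝ := ν * ν * G * M with hC₁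
  have hC₁0 : 0 ≤ C₁ := by positivity
  refine ⟨a, 2 * C₁ + 2 * C₁ * ν * b ^ 2 + d' * M + 1, ha0, by positivity, fun y hy c => ?_⟩
  obtain ⟨k1, k2, k3, k4⟩ := key y hy c
  set w : Fin n → Fib N := fun j => nab L j c y with hw
  have hwj : ∀ j, ‖nab L j c y‖ ≤ ‖w‖ := fun j => norm_le_pi_norm w j
  have hS1 : ∑ j, ‖pd j c y‖ ^ 2 ≤ ν * (2 * ‖w‖ ^ 2 + 2 * b ^ 2 * ‖c y‖ ^ 2) := by
    have h1 : ∀ j ∈ (Finset.univ : Finset (Fin n)),
        ‖pd j c y‖ ^ 2 ≤ 2 * ‖w‖ ^ 2 + 2 * b ^ 2 * ‖c y‖ ^ 2 := fun j _ => by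
      have := pow_le_pow_left₀ (norm_nonneg _) (hwj j) 2
      linarith [k1 j]
    have h2 := Finset.sum_le_card_nsmul _ _ _ h1
    rw [Finset.card_univ, Fintype.card_fin, nsmul_eq_mul] at h2
    exact h2
  have hSn : 0 ≤ ∑ j, ‖pd j c y‖ ^ 2 := Finset.sum_nonneg fun j _ => sq_nonneg _
  have hw2 : ‖w‖ ^ 2 ≤ 2 * ∑ j, ‖pd j c y‖ ^ 2 + 2 * b ^ 2 * ‖c y‖ ^ 2 := by
    obtain ⟨j, hj⟩ : ∃ j, ‖w‖ = ‖w j‖ := by
      haveI : Nonempty (Fin n) := ⟨0⟩
      obtain ⟨j, -, hj⟩ := Finset.exists_mem_eq_sup' (s := (Finset.univ : Finset (Fin n)))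
        Finset.univ_nonempty (fun j => ‖w j‖)
      refine ⟨j, le_antisymm ?_ (norm_le_pi_norm w j)⟩
      rw [← hj]
      refine (pi_norm_le_iff_of_nonneg ?_).2 fun i =>
        Finset.le_sup' (fun j => ‖w j‖) (Finset.mem_univ i)
      rw [hj]; exact norm_nonneg _
    rw [hj]
    have h1 := k2 j
    have h2 : ‖pd j c y‖ ^ 2 ≤ ∑ j, ‖pd j c y‖ ^ 2 :=
      Finset.single_le_sum (f := fun j => ‖pd j c y‖ ^ 2) (fun j _ => sq_nonneg _)
        (Finset.mem_univ j)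
    show ‖nab L j c y‖ ^ 2 ≤ _
    linarith
  rw [APoin_ed_re]
  constructor
  · have h1 := hlow y hy w
    have h2 : 0 ≤ ‖c y‖ ^ 2 := sq_nonneg _
    have h3 : 0 ≤ ‖w‖ ^ 2 := sq_nonneg _
    calc a * (‖c y‖ ^ 2 + ∑ j, ‖pd j c y‖ ^ 2)
        ≤ a * (‖c y‖ ^ 2 + ν * (2 * ‖w‖ ^ 2 + 2 * b ^ 2 * ‖c y‖ ^ 2)) := by
          refine mul_le_mul_of_nonneg_left ?_ ha0.le
          linarith
      _ = a * (2 * ν) * ‖w‖ ^ 2 + a * (1 + 2 * ν * b ^ 2) * ‖c y‖ ^ 2 := by ring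
      _ ≤ a₁ * ‖w‖ ^ 2 + d * m * ‖c y‖ ^ 2 :=
          add_le_add (mul_le_mul_of_nonneg_right haa h3) (mul_le_mul_of_nonneg_right hab h2)
      _ ≤ _ := add_le_add h1 k3
  · have h1 : APoin_Q L y w ≤ C₁ * ‖w‖ ^ 2 := by
      unfold APoin_Q
      have e1 : ∀ j k, gg L.g j k y * (inner ℂ (w j) (L.h y (w k)) : ℂ).re ≤
          G * M * ‖w‖ ^ 2 := by
        intro j k
        have e2 : |(inner ℂ (w j) (L.h y (w k)) : ℂ).re| ≤ M * ‖w‖ ^ 2 := by
          refine (Complex.abs_re_le_norm _).trans ((norm_inner_le_norm _ _).trans ?_)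
          have h5 : ‖L.h y (w k)‖ ≤ M * ‖w‖ := ((L.h y).le_opNorm (w k)).trans
            (mul_le_mul (hh y hy).1 (norm_le_pi_norm w k) (norm_nonneg _) hM.le)
          calc ‖w j‖ * ‖L.h y (w k)‖ ≤ ‖w‖ * (M * ‖w‖) :=
                mul_le_mul (norm_le_pi_norm w j) h5 (norm_nonneg _) (norm_nonneg _)
            _ = M * ‖w‖ ^ 2 := by ring
        calc gg L.g j k y * (inner ℂ (w j) (L.h y (w k)) : ℂ).re
            ≤ |gg L.g j k y| * |(inner ℂ (w j) (L.h y (w k)) : ℂ).re| := by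
              rw [← abs_mul]; exact le_abs_self _
          _ ≤ G * (M * ‖w‖ ^ 2) := mul_le_mul (hg y hy j k) e2 (abs_nonneg _) hG
          _ = _ := by ring
      have e3 : ∑ j, ∑ k, gg L.g j k y * (inner ℂ (w j) (L.h y (w k)) : ℂ).re ≤
          ∑ _j : Fin n, ∑ _k : Fin n, G * M * ‖w‖ ^ 2 :=
        Finset.sum_le_sum fun j _ => Finset.sum_le_sum fun k _ => e1 j k
      refine e3.trans (le_of_eq ?_)
      simp only [Finset.sum_const, Finset.card_univ, Fintype.card_fin, nsmul_eq_mul]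
      rw [hC₁]
      ring
    have h2 : 0 ≤ ‖c y‖ ^ 2 := sq_nonneg _
    have h3 : C₁ * ‖w‖ ^ 2 ≤ C₁ * (2 * ∑ j, ‖pd j c y‖ ^ 2 + 2 * b ^ 2 * ‖c y‖ ^ 2) :=
      mul_le_mul_of_nonneg_left hw2 hC₁0
    have hν1 : 1 ≤ ν := by
      have : 1 ≤ n := Nat.pos_of_ne_zero (NeZero.ne n)
      rw [hν]
      exact_mod_cast this
    have h4 : C₁ * b ^ 2 * ‖c y‖ ^ 2 ≤ C₁ * ν * b ^ 2 * ‖c y‖ ^ 2 := by
      have : 0 ≤ C₁ * b ^ 2 * ‖c y‖ ^ 2 := by positivity
      nlinarith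
    have h5 : 0 ≤ d' * M := by positivity
    have h6 : 0 ≤ C₁ * ν * b ^ 2 := by positivity
    nlinarith [mul_nonneg hC₁0 hSn, mul_nonneg h5 hSn, mul_nonneg h6 hSn, mul_nonneg hC₁0 h2]

end Ell

section Pull

variable {n N : ℕ} [NeZero n] {M : Type u} [TopologicalSpace M]
  [ChartedSpace (EuclideanHalfSpace n) M] [IsManifold (𝓡∂ n) ∞ M] [T2Space M] [CompactSpace M]
  [MeasurableSpace M] [BorelSpace M]

/-- The `H¹` form in solution coordinates. -/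
theorem fk_pull (P : One n N M) (p : M) {W : LD n N} {D D' : Set (E n)} {X Y : E n → E n}
    {Sf : E n → EndF N} (hD : RelOpen D) (hD' : RelOpen D') (hDt : D ⊆ tg n p) (hW : W.Ok D')
    (hp : IsPull (P.loc p) W D D' X Y Sf) {u v : M → Fib N} (hu : SmS n u) (hv : SmS n v)
    {S : Set (E n)} (hS : MeasurableSet S) (hSD : S ⊆ D') :
    MeasurableSet ((fun y => (xc n p).symm (Y y)) '' S) ∧
    FK P ((fun y => (xc n p).symm (Y y)) '' S) u v =
      ∫ y in S, (ed W (fun y => Ring.inverse (Sf (Y y)) (lu (𝓡∂ n) p u (Y y)))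
          (fun y => Ring.inverse (Sf (Y y)) (lu (𝓡∂ n) p v (Y y))) y +
        nd W (fun y => Ring.inverse (Sf (Y y)) (lu (𝓡∂ n) p u (Y y)))
          (fun y => Ring.inverse (Sf (Y y)) (lu (𝓡∂ n) p v (Y y))) y) := by
  obtain ⟨-, hok, -, hsm⟩ := TM.fLoc n N M
  have hL : (P.loc p).Ok D := cERel_okMono (hok P p) hDt
  have hs := bSymm n N (P.loc p) W D D' X Y Sf hD hD' hp
  have hd := hs.diffeo
  have hder : ∀ y ∈ S, HasFDerivWithinAt Y (fderivWithin ℝ Y (Hs n) y) S y := fun y hy =>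
    (hD'.hasD (hSD hy) hd.smX (by simp)).mono (hSD.trans hD'.subset)
  have hinj : InjOn Y S := fun a ha b hb hab => by
    rw [← hd.inv1 a (hSD ha), ← hd.inv1 b (hSD hb), hab]
  have hYm : MeasurableSet (Y '' S) :=
    hS.image_of_continuousOn_injOn (hd.smX.continuousOn.mono hSD) hinj
  have hYD : Y '' S ⊆ D := by
    rintro _ ⟨y, hy, rfl⟩; exact hd.mapsX (hSD hy)
  obtain ⟨hm, hI⟩ := (TM.fInt n N M P).2.2 p (Y '' S) hYm (hYD.trans hDt)
  have him : (fun y => (xc n p).symm (Y y)) '' S = (xc n p).symm '' (Y '' S) :=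
    (image_image _ _ _).symm
  rw [him]
  refine ⟨hm, ?_⟩
  unfold FK
  rw [hI _ (fk_cont P hu hv).aestronglyMeasurable,
    integral_image_eq_integral_abs_det_fderiv_smul volume hS hder hinj]
  refine setIntegral_congr_fun hS fun y hy => ?_
  have hyD' := hSD hy
  have hYy : Y y ∈ D := hd.mapsX hyD'
  have k1 := ed_pull hD' hD hW hL hs (((hsm u hu p).mono hDt).of_le (by norm_cast))
    (((hsm v hv p).mono hDt).of_le (by norm_cast)) hyD'
  have k2 := CEnergy_ed P p hu hv (hDt hYy)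
  have k3 : √(W.g y).det = |(Jac Y y).det| * √((P.loc p).g (Y y)).det := by
    rw [hs.g_eq y hyD', Matrix.det_mul, Matrix.det_mul, Matrix.det_transpose,
      show (Jac Y y).det * ((P.loc p).g (Y y)).det * (Jac Y y).det =
        (Jac Y y).det ^ 2 * ((P.loc p).g (Y y)).det by ring,
      Real.sqrt_mul (sq_nonneg _), Real.sqrt_sq_eq_abs]
  have k4 : (inner ℂ (Ring.inverse (Sf (Y y)) (lu (𝓡∂ n) p u (Y y)))
      (W.h y (Ring.inverse (Sf (Y y)) (lu (𝓡∂ n) p v (Y y)))) : ℂ) =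
      inner ℂ (u ((xc n p).symm (Y y))) (v ((xc n p).symm (Y y))) := by
    have h1 := hs.h_eq y hyD'
    have h2 : (P.loc p).h (Y y) (lu (𝓡∂ n) p v (Y y)) = lu (𝓡∂ n) p v (Y y) := rfl
    have h3 : (inner ℂ (lu (𝓡∂ n) p u (Y y)) ((P.loc p).h (Y y) (lu (𝓡∂ n) p v (Y y))) : ℂ) =
        inner ℂ (Ring.inverse (Sf (Y y)) (lu (𝓡∂ n) p u (Y y)))
          (W.h y (Ring.inverse (Sf (Y y)) (lu (𝓡∂ n) p v (Y y)))) := by
      rw [← h1]
      change inner ℂ _ (ContinuousLinearMap.adjoint (Ring.inverse (Sf (Y y)))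
        (W.h y (Ring.inverse (Sf (Y y)) (lu (𝓡∂ n) p v (Y y))))) = _
      rw [ContinuousLinearMap.adjoint_inner_right]
    rw [← h3, h2]
    rfl
  show |(fderivWithin ℝ Y (Hs n) y).det| • ((√((P.loc p).g (Y y)).det : ℂ) *
    (pairing P.g P.A u v ((xc n p).symm (Y y)) +
      inner ℂ (u ((xc n p).symm (Y y))) (v ((xc n p).symm (Y y))))) = _
  rw [k1, k2]
  unfold nd
  rw [k4, k3, energy_det hD' hd.smX hyD', Complex.real_smul]
  push_cast
  ring

/-- **(C4)** The two-sided comparison. -/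
theorem c4 (P : One n N M) (p : M) {W : LD n N} {D D' : Set (E n)} {X Y : E n → E n}
    {Sf : E n → EndF N} (hD : RelOpen D) (hD' : RelOpen D') (hDt : D ⊆ tg n p) (hW : W.Ok D')
    (hp : IsPull (P.loc p) W D D' X Y Sf) {K : Set (E n)} (hK : IsCompact K) (hKD : K ⊆ D') :
    ∃ C : ℝ, 0 < C ∧ ∀ u : M → Fib N, SmS n u → ∀ S : Set (E n), MeasurableSet S → S ⊆ K →
      MeasurableSet ((fun y => (xc n p).symm (Y y)) '' S) ∧
      ContDiffOn ℝ ∞ (fun y => Ring.inverse (Sf (Y y)) (lu (𝓡∂ n) p u (Y y))) D' ∧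
      ∫ y in S, (‖Ring.inverse (Sf (Y y)) (lu (𝓡∂ n) p u (Y y))‖ ^ 2 +
          ∑ j, ‖pd j (fun y => Ring.inverse (Sf (Y y)) (lu (𝓡∂ n) p u (Y y))) y‖ ^ 2) ≤
        C * (FK P ((fun y => (xc n p).symm (Y y)) '' S) u u).re ∧
      (FK P ((fun y => (xc n p).symm (Y y)) '' S) u u).re ≤
        C * ∫ y in S, (‖Ring.inverse (Sf (Y y)) (lu (𝓡∂ n) p u (Y y))‖ ^ 2 +
          ∑ j, ‖pd j (fun y => Ring.inverse (Sf (Y y)) (lu (𝓡∂ n) p u (Y y))) y‖ ^ 2) := by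
  obtain ⟨a, C, ha, hC, hell⟩ := ell_two hD' hW hK hKD
  obtain ⟨-, hok, -, hsm⟩ := TM.fLoc n N M
  have hs := bSymm n N (P.loc p) W D D' X Y Sf hD hD' hp
  refine ⟨max a⁻¹ C, lt_max_of_lt_right hC, fun u hu S hS hSK => ?_⟩
  set c : E n → Fib N := fun y => Ring.inverse (Sf (Y y)) (lu (𝓡∂ n) p u (Y y)) with hc
  obtain ⟨hm, he⟩ := fk_pull P p hD hD' hDt hW hp hu hu hS (hSK.trans hKD)
  have hcs : ContDiffOn ℝ ∞ c D' :=
    smooth_eval hs.smS (((hsm u hu p).mono hDt).comp hs.diffeo.smX hs.diffeo.mapsX)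
  have hnc : ContinuousOn (nd W c c) D' := by
    have h1 : ContinuousOn (fun y => (√(W.g y).det)) D' := by
      have h2 : ContinuousOn W.g D' :=
        continuousOn_pi.2 fun i => continuousOn_pi.2 fun j => (hW.g_smooth i j).continuousOn
      exact (Continuous.comp_continuousOn (Continuous.matrix_det continuous_id) h2).sqrt
    exact (Complex.continuous_ofReal.comp_continuousOn h1).mul
      (hcs.continuousOn.inner (𝕜 := ℂ) (smooth_eval hW.h_smooth hcs).continuousOn)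
  have hi1 : IntegrableOn (fun y => ed W c c y + nd W c c y) S :=
    ((((APoin_ed_cont hD' hW hcs).add hnc).mono hKD).integrableOn_compact hK).mono_set hSK
  have hi2 : IntegrableOn (fun y => ‖c y‖ ^ 2 + ∑ j, ‖pd j c y‖ ^ 2) S := by
    refine (ContinuousOn.integrableOn_compact hK ?_).mono_set hSK
    refine ((hcs.continuousOn.mono hKD).norm.pow 2).add (continuousOn_finsetSum _ fun j _ => ?_)
    exact (((hD'.pd_smooth hcs j).continuousOn.mono hKD).norm.pow 2)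
  have hre : (FK P ((fun y => (xc n p).symm (Y y)) '' S) u u).re =
      ∫ y in S, ((ed W c c y).re + (nd W c c y).re) := by
    rw [he]
    exact (integral_re hi1).symm
  have hi3 : IntegrableOn (fun y => (ed W c c y).re + (nd W c c y).re) S := hi1.re
  rw [hre]
  refine ⟨hm, hcs, ?_, ?_⟩
  · have h1 : a * ∫ y in S, (‖c y‖ ^ 2 + ∑ j, ‖pd j c y‖ ^ 2) ≤
        ∫ y in S, ((ed W c c y).re + (nd W c c y).re) := by
      rw [← integral_const_mul]
      exact setIntegral_mono_on (hi2.const_mul a) hi3 hS fun y hy => (hell y (hSK hy) c).1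
    have h0 : 0 ≤ ∫ y in S, ((ed W c c y).re + (nd W c c y).re) := by
      refine le_trans (mul_nonneg ha.le (integral_nonneg fun y => ?_)) h1
      exact add_nonneg (sq_nonneg _) (Finset.sum_nonneg fun j _ => sq_nonneg _)
    calc ∫ y in S, (‖c y‖ ^ 2 + ∑ j, ‖pd j c y‖ ^ 2)
        = a⁻¹ * (a * ∫ y in S, (‖c y‖ ^ 2 + ∑ j, ‖pd j c y‖ ^ 2)) := by
          rw [← mul_assoc, inv_mul_cancel₀ ha.ne', one_mul]
      _ ≤ a⁻¹ * ∫ y in S, ((ed W c c y).re + (nd W c c y).re) :=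
          mul_le_mul_of_nonneg_left h1 (inv_nonneg.2 ha.le)
      _ ≤ _ := mul_le_mul_of_nonneg_right (le_max_left _ _) h0
  · have h1 : ∫ y in S, ((ed W c c y).re + (nd W c c y).re) ≤
        C * ∫ y in S, (‖c y‖ ^ 2 + ∑ j, ‖pd j c y‖ ^ 2) := by
      rw [← integral_const_mul]
      exact setIntegral_mono_on hi3 (hi2.const_mul C) hS fun y hy => (hell y (hSK hy) c).2
    refine h1.trans (mul_le_mul_of_nonneg_right (le_max_right _ _) (integral_nonneg fun y => ?_))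
    exact add_nonneg (sq_nonneg _) (Finset.sum_nonneg fun j _ => sq_nonneg _)

end Pull

end Vale.Agent.P088.R2.H509.S4

end
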