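import Vale.Agent.P088.R2.H509.S3.Rm
import Vale.Agent.P088.R2.H509.Est
import Vale.Agent.P088.R2.H509.S4.C4

/-!
# P088, stage 4: estimates in boundary models, all `N`
-/

set_option linter.all false

open Bundle Manifold MeasureTheory Set Filter Topology Metric
open scoped ContDiff

noncomputable section

namespace Vale.Agent.P088.R2.H509.S4

open Vale.Agent.P088 Vale.Agent.P088.EYM Vale.Agent.P088.TM
open Vale.Agent.P088.EYM.Q (IsMod)
open Vale.Agent.P088.R2.H509.S3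

universe u

variable {n N : ℕ} [NeZero n]

/-- `|c|² + |∇ c|²` -/
def hn (c : E n → Fib N) (x : E n) : ℝ := ‖c x‖ ^ 2 + ∑ j, ‖pd j c x‖ ^ 2

theorem hn_nonneg (c : E n → Fib N) (x : E n) : 0 ≤ hn c x :=
  add_nonneg (sq_nonneg _) (Finset.sum_nonneg fun _ _ => sq_nonneg _)

theorem hn_cont {D : Set (E n)} (hD : RelOpen D) {c : E n → Fib N} (hc : ContDiffOn ℝ ∞ c D) :
    ContinuousOn (hn c) D :=
  (hc.continuousOn.norm.pow 2).add (continuousOn_finsetSum _ fun j _ =>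
    (hD.pd_smooth hc j).continuousOn.norm.pow 2)

theorem norm_sub_sq_le (a b : Fib N) : ‖a - b‖ ^ 2 ≤ 2 * ‖a‖ ^ 2 + 2 * ‖b‖ ^ 2 := by
  have h1 := norm_sub_le a b
  have h2 := pow_le_pow_left₀ (norm_nonneg _) h1 2
  nlinarith [sq_nonneg (‖a‖ - ‖b‖)]

theorem hn_sub_le {D : Set (E n)} (hD : RelOpen D) {a b : E n → Fib N} (ha : ContDiffOn ℝ ∞ a D)
    (hb : ContDiffOn ℝ ∞ b D) {x : E n} (hx : x ∈ D) :
    hn (fun y => a y - b y) x ≤ 2 * hn a x + 2 * hn b x := by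
  unfold hn
  have h1 : ∀ j, ‖pd j (fun y => a y - b y) x‖ ^ 2 ≤ 2 * ‖pd j a x‖ ^ 2 + 2 * ‖pd j b x‖ ^ 2 :=
    fun j => by
      rw [hD.pd_sub ha hb hx j]
      exact norm_sub_sq_le _ _
  have h2 := Finset.sum_le_sum fun j (_ : j ∈ (Finset.univ : Finset (Fin n))) => h1 j
  rw [Finset.sum_add_distrib, ← Finset.mul_sum, ← Finset.mul_sum] at h2
  have h3 := norm_sub_sq_le (a x) (b x)
  linarith

/-- Smooth sections with compact support in a ball. -/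
structure TstF (z : E n) (r : ℝ) (f : E n → Fib N) : Prop where
  sm : ContDiff ℝ ∞ f
  sp : ∃ r' < r, ∀ x, x ∉ ball z r' → f x = 0

theorem TstF.tst {z : E n} {r : ℝ} {f : E n → Fib N} (h : TstF z r f) : TstH z r f := by
  obtain ⟨r', hr', h0⟩ := h.sp
  exact ⟨h.sm.contDiffOn, r', hr', fun x _ hx => h0 x hx⟩

theorem TstF.lin {z : E n} {r : ℝ} {f g : E n → Fib N} (hf : TstF z r f) (hg : TstF z r g)
    (a b : ℂ) : TstF z r (fun x => a • f x + b • g x) := by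
  obtain ⟨r₁, h₁, hf0⟩ := hf.sp
  obtain ⟨r₂, h₂, hg0⟩ := hg.sp
  refine ⟨(hf.sm.const_smul a).add (hg.sm.const_smul b), max r₁ r₂, max_lt h₁ h₂,
    fun x hx => ?_⟩
  rw [hf0 x fun h => hx (ball_subset_ball (le_max_left _ _) h),
    hg0 x fun h => hx (ball_subset_ball (le_max_right _ _) h)]
  simp

theorem TstF.ext {z : E n} {r : ℝ} {f : E n → Fib N} (h : TstF z r f) :
    CRel1_ext z r f = f := by
  obtain ⟨r', hr', h0⟩ := h.sp
  funext y
  by_cases hy : y ∈ ball z r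
  · exact CRel1_ext_in _ hy
  · rw [CRel1_ext_out _ hy, h0 y fun h' => hy (ball_subset_ball hr'.le h')]

theorem ell_nd {L : LD n N} {D K : Set (E n)} (hD : RelOpen D) (hL : L.Ok D)
    (hK : IsCompact K) (hKD : K ⊆ D) :
    ∃ C : ℝ, 0 < C ∧ ∀ y ∈ K, ∀ c : E n → Fib N,
      0 ≤ (ed L c c y).re ∧ 0 ≤ (nd L c c y).re ∧ (nd L c c y).re ≤ C * ‖c y‖ ^ 2 := by
  obtain ⟨a₁, ha₁, hlow⟩ := APoin_Q_low hD hL hK hKD
  obtain ⟨m, M, hm, hM, hh⟩ := APoin_h_bd hL hK hKD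
  obtain ⟨d, d', hd, hd', hdet⟩ := ell_det hD hL hK hKD
  refine ⟨d' * M, by positivity, fun y hy c => ?_⟩
  have h1 : (nd L c c y).re = √(L.g y).det * (inner ℂ (c y) (L.h y (c y)) : ℂ).re := by
    unfold nd; rw [Complex.re_ofReal_mul]
  refine ⟨?_, ?_, ?_⟩
  · rw [APoin_ed_re]
    exact le_trans (mul_nonneg ha₁.le (sq_nonneg _)) (hlow y hy _)
  · rw [h1]
    refine mul_nonneg (Real.sqrt_nonneg _) (le_trans ?_ ((hh y hy).2 (c y)))
    positivity
  · rw [h1]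
    have h2 : (inner ℂ (c y) (L.h y (c y)) : ℂ).re ≤ M * ‖c y‖ ^ 2 := by
      refine (Complex.re_le_norm _).trans ((norm_inner_le_norm _ _).trans ?_)
      have h5 := ((L.h y).le_opNorm (c y)).trans
        (mul_le_mul_of_nonneg_right (hh y hy).1 (norm_nonneg _))
      calc ‖c y‖ * ‖L.h y (c y)‖ ≤ ‖c y‖ * (M * ‖c y‖) :=
            mul_le_mul_of_nonneg_left h5 (norm_nonneg _)
        _ = M * ‖c y‖ ^ 2 := by ring
    have h4 : 0 ≤ M * ‖c y‖ ^ 2 := by positivity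
    calc √(L.g y).det * (inner ℂ (c y) (L.h y (c y)) : ℂ).re ≤
          √(L.g y).det * (M * ‖c y‖ ^ 2) := mul_le_mul_of_nonneg_left h2 (Real.sqrt_nonneg _)
      _ ≤ d' * (M * ‖c y‖ ^ 2) := mul_le_mul_of_nonneg_right (hdet y hy).2 h4
      _ = _ := by ring

section model

variable {W : LD n N} {z : E n} {r r₀ : ℝ}

theorem intHB {z : E n} {r r' : ℝ} (hrr : r < r') {F' : Type*} [NormedAddCommGroup F']
    {F : E n → F'} (hF : ContinuousOn F (HB z r')) : IntegrableOn F (HB z r) :=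
  ((hF.mono (KB_sub' hrr)).integrableOn_compact KB_compact).mono_set HB_sub_KB

theorem En_reN (hW : W.Ok (HB z r₀)) (hrr : r < r₀) {q : E n → Fib N}
    (hq : ContDiffOn ℝ ∞ q (HB z r₀)) :
    IntegrableOn (fun x => (ed W q q x).re) (HB z r) ∧
    (En W (HB z r) q q).re = ∫ x in HB z r, (ed W q q x).re := by
  have h3 : IntegrableOn (fun x => ed W q q x) (HB z r) :=
    intHB hrr (APoin_ed_cont (HB_rel z r₀) hW hq)
  exact ⟨h3.re, (integral_re (𝕜 := ℂ) h3).symm⟩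

/-- `H¹` norms are bounded by the energy. -/
theorem lowN (hW : W.Ok (HB z r₀)) (hz : z 0 = 0) (hr : 0 < r) (hrr : r < r₀) :
    ∃ C : ℝ, 0 ≤ C ∧ ∀ q : E n → Fib N, ContDiffOn ℝ ∞ q (HB z r₀) →
      (∀ x ∈ HB z r₀, x 0 = 0 → q x = 0) →
      ∫ x in HB z r, hn q x ≤ C * (En W (HB z r) q q).re := by
  have hsub : HB z r ⊆ HB z r₀ := CRel1_HB_mono z hrr.le
  have hzH : z ∈ Hs n := le_of_eq hz.symm
  obtain ⟨C1, hC1⟩ := (fPoin n N W z r₀ r hr hrr hzH hW).1 hz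
  obtain ⟨a, C, ha, hC, hell⟩ := ell_two (HB_rel z r₀) hW (KB_compact (z := z) (r := r))
    (KB_sub' hrr)
  obtain ⟨C2, hC2, hnd⟩ := ell_nd (HB_rel z r₀) hW (KB_compact (z := z) (r := r)) (KB_sub' hrr)
  refine ⟨a⁻¹ * (1 + C2 * |C1|), by positivity, fun q hq hq0 => ?_⟩
  have h1 := hC1 q hq hq0
  obtain ⟨hi, hE⟩ := En_reN hW hrr hq
  have hE0 : 0 ≤ (En W (HB z r) q q).re := by
    rw [hE]
    exact setIntegral_nonneg (HB_meas z r) fun x hx => (hnd x (HB_sub_KB hx) q).1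
  have h1' : ∫ x in HB z r, ‖q x‖ ^ 2 ≤ |C1| * (En W (HB z r) q q).re :=
    h1.trans (mul_le_mul_of_nonneg_right (le_abs_self _) hE0)
  have iq : IntegrableOn (hn q) (HB z r) := intHB hrr (hn_cont (HB_rel z r₀) hq)
  have i1 : IntegrableOn (fun x => ‖q x‖ ^ 2) (HB z r) := intHB hrr (hq.continuousOn.norm.pow 2)
  have hpt : ∀ x ∈ HB z r, a * hn q x ≤ (ed W q q x).re + C2 * ‖q x‖ ^ 2 := by
    intro x hx
    have k1 := (hell x (HB_sub_KB hx) q).1
    have k2 := (hnd x (HB_sub_KB hx) q).2.2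
    unfold hn
    linarith
  have h6 : ∫ x in HB z r, a * hn q x ≤ ∫ x in HB z r, ((ed W q q x).re + C2 * ‖q x‖ ^ 2) :=
    setIntegral_mono_on (iq.const_mul _) (hi.add (i1.const_mul _)) (HB_meas z r) hpt
  rw [integral_add hi (i1.const_mul _), integral_const_mul, integral_const_mul, ← hE] at h6
  have h7 : C2 * ∫ x in HB z r, ‖q x‖ ^ 2 ≤ C2 * (|C1| * (En W (HB z r) q q).re) :=
    mul_le_mul_of_nonneg_left h1' hC2.le
  calc ∫ x in HB z r, hn q x = a⁻¹ * (a * ∫ x in HB z r, hn q x) := by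
        rw [← mul_assoc, inv_mul_cancel₀ ha.ne', one_mul]
    _ ≤ a⁻¹ * ((1 + C2 * |C1|) * (En W (HB z r) q q).re) := by
        refine mul_le_mul_of_nonneg_left ?_ (inv_nonneg.2 ha.le)
        linarith
    _ = _ := by ring

/-- The energy is bounded by the `H¹` norm. -/
theorem upN (hW : W.Ok (HB z r₀)) (hrr : r < r₀) :
    ∃ C : ℝ, 0 ≤ C ∧ ∀ q : E n → Fib N, ContDiffOn ℝ ∞ q (HB z r₀) →
      (En W (HB z r) q q).re ≤ C * ∫ x in HB z r, hn q x := by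
  obtain ⟨a, C, ha, hC, hell⟩ := ell_two (HB_rel z r₀) hW (KB_compact (z := z) (r := r))
    (KB_sub' hrr)
  obtain ⟨C2, hC2, hnd⟩ := ell_nd (HB_rel z r₀) hW (KB_compact (z := z) (r := r)) (KB_sub' hrr)
  refine ⟨C, hC.le, fun q hq => ?_⟩
  obtain ⟨hi, hE⟩ := En_reN hW hrr hq
  have iq : IntegrableOn (hn q) (HB z r) := intHB hrr (hn_cont (HB_rel z r₀) hq)
  rw [hE, ← integral_const_mul]
  refine setIntegral_mono_on hi (iq.const_mul _) (HB_meas z r) fun x hx => ?_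
  have k1 := (hell x (HB_sub_KB hx) q).2
  have k2 := (hnd x (HB_sub_KB hx) q).2.1
  unfold hn
  linarith

/-- The remainder. -/
theorem remN (hW : W.Ok (HB z r₀)) (hz : z 0 = 0) (hr : 0 < r) (hrr : r < r₀) {q : E n → Fib N}
    (hq : ContDiffOn ℝ ∞ q (HB z r₀)) :
    Rem W z r q ^ 2 ≤ r ^ 2 * ∫ x in HB z r, ‖Lop W q x‖ ^ 2 := by
  have hD := HB_rel z r₀
  have hLc : ContinuousOn (Lop W q) (HB z r₀) := by
    unfold Lop
    refine continuousOn_finsetSum _ fun j _ => ?_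
    have h1 : ContDiffOn ℝ ∞ (flux W j q) (HB z r₀) := by
      unfold flux
      exact ContDiffOn.sum fun k _ =>
        (hD.gg_smooth hW.g_smooth hW.g_pos j k).smul (Jacobi_nab_smooth hD hW hq k)
    exact (hD.pd_smooth h1 j).continuousOn.add (smooth_eval (hW.B_smooth j) h1).continuousOn
  have i2 : IntegrableOn (fun x => ‖Lop W q x‖ ^ 2) (HB z r) := intHB hrr (hLc.norm.pow 2)
  have i1 : IntegrableOn (fun x => (x 0) ^ 2 * ‖Lop W q x‖ ^ 2) (HB z r) :=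
    intHB hrr (((continuous_coord 0).continuousOn.pow 2).mul (hLc.norm.pow 2))
  unfold Rem
  rw [Real.sq_sqrt (setIntegral_nonneg (HB_meas z r) fun x hx => by positivity),
    ← integral_const_mul]
  refine setIntegral_mono_on i1 (i2.const_mul _) (HB_meas z r) fun x hx => ?_
  have hx0 : x 0 ^ 2 ≤ r ^ 2 := by
    have h1 : ‖(x - z) 0‖ ≤ ‖x - z‖ := PiLp.norm_apply_le (x - z) 0
    have h2 : ‖x - z‖ < r := mem_ball_iff_norm.1 hx.1
    have h3 : (x - z) 0 = x 0 := by rw [PiLp.sub_apply, hz, sub_zero]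
    rw [h3, Real.norm_eq_abs] at h1
    exact sq_le_sq' (by linarith [neg_abs_le (x 0)]) (by linarith [le_abs_self (x 0)])
  exact mul_le_mul_of_nonneg_right hx0 (sq_nonneg _)

end model

section One

variable {M : Type u}
  [TopologicalSpace M] [ChartedSpace (EuclideanHalfSpace n) M] [IsManifold (𝓡∂ n) ∞ M]
  [MeasurableSpace M] {P : One n N M} {e : E n → M} {L : LD n N} {D₀ : Set (E n)} {z : E n}
  {r₀ r : ℝ} {j0 : Fin N} {W : Model n N} {D : Set (E n)} {X Y : E n → E n} {S : E n → EndF N}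
  {s : Fin N → M → Fib N} {t : Fin n → M → Fib N}

/-- the section in the model -/
def vN (e : E n → M) (S : E n → EndF N) (Y : E n → E n) (u : M → Fib N) (y : E n) : Fib N :=
  Ring.inverse (S (Y y)) (u (e (Y y)))

variable [T2Space M] [CompactSpace M] [ConnectedSpace M] [BorelSpace M]

/-- one side -/
theorem oneN (hbne : ((𝓡∂ n).boundary M).Nonempty) (b : BC P e L D₀)
    (h : BdM e L D₀ z r₀ j0 W D X Y S s t) (hr : 0 < r) (hrr : r < r₀) :
    ∃ C : ℝ, 0 ≤ C ∧ ∀ f, TstF z r f → ∀ Zc, IsZ e D₀ z r D X S f Zc → ∀ u, P.Harm Zc u →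
      Sol W.toLD (HB z r₀) (vN e S Y u) ∧
      (∀ x ∈ HB z r₀, x 0 = 0 → vN e S Y u x = f x) ∧
      ∫ x in HB z r, hn (fun y => f y - vN e S Y u y) x ≤
        C * ∫ x in HB z r, ‖Lop W.toLD f x‖ ^ 2 ∧
      ∫ x in HB z r, hn (fun y => f y - vN e S Y u y) x ≤ C * ∫ x in HB z r, hn f x := by
  have hz := h.z0
  have hW := h.model.ok
  obtain ⟨C₁, hC₁, k₁⟩ := pcRem hbne b h r hr hrr
  obtain ⟨C₂, hC₂, k₂⟩ := lowN hW hz hr hrr
  obtain ⟨C₃, hC₃, k₃⟩ := upN hW hrr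
  refine ⟨C₂ * (C₁ * r ^ 2) + C₂ * C₃, by positivity, fun f hf Zc hZ u hu => ?_⟩
  obtain ⟨s1, s2, s3⟩ := pcSide b h hu
  have hbd : ∀ x ∈ HB z r₀, x 0 = 0 → vN e S Y u x = f x := by
    intro x hx hx0
    obtain ⟨a1, -, a3, a4⟩ := h.bd x hx hx0
    have hxD := h.sub a1
    unfold vN
    rw [a3, a4, Ring.inverse_one, ContinuousLinearMap.one_apply,
      hu.boundary _ ((b.bd x hxD).2 hx0), hZ.bd x hxD hx0, hf.ext]
  refine ⟨s3, hbd, ?_⟩
  have hfs : ContDiffOn ℝ ∞ f (HB z r₀) := hf.sm.contDiffOn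
  have hqs : ContDiffOn ℝ ∞ (fun y => f y - vN e S Y u y) (HB z r₀) := hfs.sub s1
  have hq0 : ∀ x ∈ HB z r₀, x 0 = 0 → f x - vN e S Y u x = 0 := fun x hx hx0 => by
    rw [hbd x hx hx0, sub_self]
  obtain ⟨e1, e2⟩ := k₁ f hf.tst Zc hZ u hu
  have e3 := k₂ _ hqs hq0
  have e4 := k₃ f hfs
  have e5 := remN hW hz hr hrr hfs
  have p1 : 0 ≤ ∫ x in HB z r, ‖Lop W.toLD f x‖ ^ 2 := integral_nonneg fun _ => sq_nonneg _
  have p2 : 0 ≤ ∫ x in HB z r, hn f x := integral_nonneg fun _ => hn_nonneg _ _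
  constructor
  · calc _ ≤ C₂ * (En W.toLD (HB z r) (fun y => f y - vN e S Y u y)
          (fun y => f y - vN e S Y u y)).re := e3
      _ ≤ C₂ * (C₁ * Rem W.toLD z r f ^ 2) := mul_le_mul_of_nonneg_left e1 hC₂
      _ ≤ C₂ * (C₁ * (r ^ 2 * ∫ x in HB z r, ‖Lop W.toLD f x‖ ^ 2)) :=
          mul_le_mul_of_nonneg_left (mul_le_mul_of_nonneg_left e5 hC₁) hC₂
      _ ≤ _ := by
          have : 0 ≤ C₂ * C₃ * ∫ x in HB z r, ‖Lop W.toLD f x‖ ^ 2 := by positivity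
          linarith
  · calc _ ≤ C₂ * (En W.toLD (HB z r) (fun y => f y - vN e S Y u y)
          (fun y => f y - vN e S Y u y)).re := e3
      _ ≤ C₂ * (En W.toLD (HB z r) f f).re := mul_le_mul_of_nonneg_left e2 hC₂
      _ ≤ C₂ * (C₃ * ∫ x in HB z r, hn f x) := mul_le_mul_of_nonneg_left e4 hC₂
      _ ≤ _ := by
          have : 0 ≤ C₂ * (C₁ * r ^ 2) * ∫ x in HB z r, hn f x := by positivity
          linarith

end One

end Vale.Agent.P088.R2.H509.S4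

end
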