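import Vale.Agent.P088.R2.H509.S4.N1

/-!
# P088, stage 4: the pair of solution operators at a boundary point, all `N`
-/

set_option linter.all false

open Bundle Manifold MeasureTheory Set Filter Topology Metric
open scoped ContDiff

noncomputable section

namespace Vale.Agent.P088.R2.H509.S4

open Vale.Agent.P088 Vale.Agent.P088.EYM Vale.Agent.P088.TM
open Vale.Agent.P088.EYM.Q (IsMod)
open Vale.Agent.P088.R2.H509.S3

universe u

/-- A pair of solution operators for two systems in a half ball with the same Cauchy data. -/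
structure PSolN {n N : ℕ} [NeZero n] (W₁ W₂ : LD n N) (z : E n) (r r₀ C : ℝ)
    (V₁ V₂ : (E n → Fib N) → E n → Fib N) : Prop where
  sol₁ : ∀ f, TstF z r f → Sol W₁ (HB z r₀) (V₁ f)
  sol₂ : ∀ f, TstF z r f → Sol W₂ (HB z r₀) (V₂ f)
  val₁ : ∀ f, TstF z r f → ∀ x ∈ HB z r₀, x 0 = 0 → V₁ f x = f x
  val₂ : ∀ f, TstF z r f → ∀ x ∈ HB z r₀, x 0 = 0 → V₂ f x = f x
  fl : ∀ f, TstF z r f → ∀ x ∈ HB z r, x 0 = 0 → flux W₁ 0 (V₁ f) x = flux W₂ 0 (V₂ f) x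
  lin₁ : ∀ f g, TstF z r f → TstF z r g → ∀ a b : ℂ, ∀ x,
    V₁ (fun y => a • f y + b • g y) x = a • V₁ f x + b • V₁ g x
  lin₂ : ∀ f g, TstF z r f → TstF z r g → ∀ a b : ℂ, ∀ x,
    V₂ (fun y => a • f y + b • g y) x = a • V₂ f x + b • V₂ g x
  e₁ : ∀ f, TstF z r f → ∫ x in HB z r, hn (fun y => f y - V₁ f y) x ≤
    C * ∫ x in HB z r, ‖Lop W₁ f x‖ ^ 2
  e₂ : ∀ f, TstF z r f → ∫ x in HB z r, hn (fun y => f y - V₂ f y) x ≤
    C * ∫ x in HB z r, hn f x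
  ok₁ : W₁.Ok (HB z r₀)
  ok₂ : W₂.Ok (HB z r₀)
  cs₁ : ∀ v : Fib N, Sol W₁ (HB z r₀) (fun _ => v)
  cs₂ : ∀ v : Fib N, Sol W₂ (HB z r₀) (fun _ => v)
  h₁ : ∀ x ∈ HB z r₀, x 0 = 0 → W₁.h x = 1
  h₂ : ∀ x ∈ HB z r₀, x 0 = 0 → W₂.h x = 1
  g0 : ∀ k, ∀ x ∈ HB z r, x 0 = 0 → gg W₁.g 0 k x = gg W₂.g 0 k x
  b0 : ∀ v : Fib N, ∀ x ∈ HB z r, x 0 = 0 →
    flux W₁ 0 (fun _ => v) x = flux W₂ 0 (fun _ => v) x

variable {n N : ℕ} [NeZero n]

theorem flux_split (L : LD n N) (j : Fin n) (c : E n → Fib N) (x : E n) :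
    flux L j c x = ∑ k, gg L.g j k x • pd k c x + flux L j (fun _ => c x) x := by
  unfold flux nab
  simp only [pd_const, zero_add, smul_add, Finset.sum_add_distrib]

theorem flux_congr_at {L : LD n N} {D : Set (E n)} (hD : RelOpen D) {c d : E n → Fib N}
    (h : EqOn c d D) {x : E n} (hx : x ∈ D) (j : Fin n) : flux L j c x = flux L j d x := by
  unfold flux nab
  exact Finset.sum_congr rfl fun k _ => by rw [hD.pd_congr h hx k, h hx]

theorem flux_const (L : LD n N) (j : Fin n) (v : Fib N) (x : E n) :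
    flux L j (fun _ => v) x = ∑ k, gg L.g j k x • L.B k x v := by
  unfold flux nab
  simp only [pd_const, zero_add]

theorem fib_sum (v : Fib N) : v = ∑ j, v j • (EuclideanSpace.single j (1 : ℂ) : Fib N) := by
  ext i
  simp [Pi.single_apply]

theorem flux_const_sum (L : LD n N) (j : Fin n) (v : Fib N) (x : E n) :
    flux L j (fun _ => v) x =
      ∑ i, v i • flux L j (fun _ => (EuclideanSpace.single i (1 : ℂ) : Fib N)) x := by
  simp only [flux_const]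
  conv_lhs => rw [fib_sum v]
  simp only [map_sum, map_smul, Finset.smul_sum]
  rw [Finset.sum_comm]
  refine Finset.sum_congr rfl fun i _ => Finset.sum_congr rfl fun k _ => ?_
  exact smul_comm _ _ _

/-- the sections of the frame in the model -/
theorem vN_frame {M : Type u} {e : E n → M} {L : LD n N} {D₀ : Set (E n)} {z : E n} {r₀ : ℝ}
    {j0 : Fin N} {W : Model n N} {D : Set (E n)} {X Y : E n → E n} {S : E n → EndF N}
    {s : Fin N → M → Fib N} {t : Fin n → M → Fib N} (h : BdM e L D₀ z r₀ j0 W D X Y S s t)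
    (j : Fin N) : EqOn (vN e S Y (s j)) (fun _ => EuclideanSpace.single j (1 : ℂ)) (HB z r₀) := by
  intro y hy
  have hYD := h.pull.diffeo.mapsY hy
  have e1 : s j (e (Y y)) = S (Y y) (EuclideanSpace.single j (1 : ℂ)) := by
    rw [h.frame _ hYD, Finset.sum_eq_single j]
    · simp
    · intro k _ hk
      simp [hk]
    · simp
  have e2 : Ring.inverse (S (Y y)) * S (Y y) = 1 :=
    Ring.inverse_mul_cancel _ (h.pull.unit _ hYD)
  have e3 := congrArg (fun T : EndF N => T (EuclideanSpace.single j (1 : ℂ))) e2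
  simp only [ContinuousLinearMap.mul_apply, ContinuousLinearMap.one_apply] at e3
  unfold vN
  rw [e1]
  exact e3

theorem vN_coord {M : Type u} {e : E n → M} {L : LD n N} {D₀ : Set (E n)} {z : E n} {r₀ : ℝ}
    {j0 : Fin N} {W : Model n N} {D : Set (E n)} {X Y : E n → E n} {S : E n → EndF N}
    {s : Fin N → M → Fib N} {t : Fin n → M → Fib N} (h : BdM e L D₀ z r₀ j0 W D X Y S s t)
    (a : Fin n) : EqOn (vN e S Y (t a)) (W.c a) (HB z r₀) := by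
  intro y hy
  have hYD := h.pull.diffeo.mapsY hy
  have e1 := h.coord _ hYD a
  rw [h.pull.diffeo.inv2 y hy] at e1
  have e2 : Ring.inverse (S (Y y)) * S (Y y) = 1 :=
    Ring.inverse_mul_cancel _ (h.pull.unit _ hYD)
  have e3 := congrArg (fun T : EndF N => T (W.c a y)) e2
  simp only [ContinuousLinearMap.mul_apply, ContinuousLinearMap.one_apply] at e3
  unfold vN
  rw [e1]
  exact e3

/-- the derivative of the real part of the component `j0` -/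
theorem pd_re {D : Set (E n)} (hD : RelOpen D) {c : E n → Fib N} (hc : ContDiffOn ℝ ∞ c D)
    (j0 : Fin N) {x : E n} (hx : x ∈ D) (k : Fin n) :
    pd k (fun y => (c y j0).re) x = (pd k c x j0).re := by
  let ℓ : Fib N →L[ℝ] ℝ :=
    Complex.reCLM.comp ((EuclideanSpace.proj (𝕜 := ℂ) j0).restrictScalars ℝ)
  exact hD.pd_clm ℓ hc hx k

variable {M₁ M₂ : Type u}
  [TopologicalSpace M₁] [ChartedSpace (EuclideanHalfSpace n) M₁] [IsManifold (𝓡∂ n) ∞ M₁]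
  [TopologicalSpace M₂] [ChartedSpace (EuclideanHalfSpace n) M₂] [IsManifold (𝓡∂ n) ∞ M₂]
  [MeasurableSpace M₁] [MeasurableSpace M₂]
  {P : One n N M₁} {Q : One n N M₂} {G : Gl M₁ M₂} {e₁ : E n → M₁} {e₂ : E n → M₂}
  {L₁ L₂ : LD n N} {D₀ : Set (E n)}
  [T2Space M₁] [CompactSpace M₁] [ConnectedSpace M₁] [BorelSpace M₁]
  [T2Space M₂] [CompactSpace M₂] [ConnectedSpace M₂] [BorelSpace M₂]

/-- The solution operators of two manifolds with the same boundary data. -/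
theorem pairSolN (hP : PC P Q G e₁ e₂ L₁ L₂ D₀) (hG : G.Ok n N) (hS : SameD P Q G)
    {z : E n} {r₀ r : ℝ} {j0 : Fin N} {W₁ W₂ : Model n N} {D₁ D₂ : Set (E n)}
    {X₁ Y₁ X₂ Y₂ : E n → E n} {S₁ S₂ : E n → EndF N}
    {s : Fin N → (M₁ → Fib N) × (M₂ → Fib N)} {t : Fin n → (M₁ → Fib N) × (M₂ → Fib N)}
    (hs : ∀ j, s j ∈ PP P Q G) (ht : ∀ a, t a ∈ PP P Q G)
    (h₁ : BdM e₁ L₁ D₀ z r₀ j0 W₁ D₁ X₁ Y₁ S₁ (fun j => (s j).1) (fun a => (t a).1))
    (h₂ : BdM e₂ L₂ D₀ z r₀ j0 W₂ D₂ X₂ Y₂ S₂ (fun j => (s j).2) (fun a => (t a).2))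
    (hr : 0 < r) (hrr : r < r₀) :
    ∃ (C : ℝ) (V₁ V₂ : (E n → Fib N) → E n → Fib N), 0 ≤ C ∧
      PSolN W₁.toLD W₂.toLD z r r₀ C V₁ V₂ ∧
      ∀ f, TstF z r f → ∃ u ∈ PP P Q G, V₁ f = vN e₁ S₁ Y₁ u.1 ∧ V₂ f = vN e₂ S₂ Y₂ u.2 := by
  have hbd₁ : ((𝓡∂ n).boundary M₁).Nonempty := bne hG.rel₁ hG.ne₁
  have hbd₂ : ((𝓡∂ n).boundary M₂).Nonempty := bne hG.rel₂ hG.ne₂
  obtain ⟨hU₁, hL₁, -⟩ := fUniq n N M₁ P hbd₁
  obtain ⟨hU₂, hL₂, -⟩ := fUniq n N M₂ Q hbd₂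
  obtain ⟨C₁, hC₁, k₁⟩ := oneN hbd₁ hP.b1 h₁ hr hrr
  obtain ⟨C₂, hC₂, k₂⟩ := oneN hbd₂ hP.b2 h₂ hr hrr
  have hsub : HB z r ⊆ HB z r₀ := CRel1_HB_mono z hrr.le
  have hrel := HB_rel z r₀
  -- sections
  have hz₁ : ∀ f, TstF z r f → ∃ Z, IsZ e₁ D₀ z r D₁ X₁ S₁ f Z := fun f hf => by
    obtain ⟨Z, a1, a2, a3, a4⟩ := pcZ hP.b1 h₁ r hrr f hf.tst
    exact ⟨Z, a1, a2, a3, a4⟩
  have hz₂ : ∀ f, TstF z r f → ∃ Z, IsZ e₂ D₀ z r D₂ X₂ S₂ f Z := fun f hf => by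
    obtain ⟨Z, a1, a2, a3, a4⟩ := pcZ hP.b2 h₂ r hrr f hf.tst
    exact ⟨Z, a1, a2, a3, a4⟩
  choose! Z₁ hZ₁ using hz₁
  choose! Z₂ hZ₂ using hz₂
  have hmd : ∀ f, TstF z r f → MD n G (Z₁ f) (Z₂ f) := fun f hf =>
    hP.md hG (hZ₁ f hf).sm (hZ₂ f hf).sm ((hZ₁ f hf).ts.trans (image_mono h₁.sub))
      ((hZ₂ f hf).ts.trans (image_mono h₂.sub))
      fun y hy hy0 => by rw [(hZ₁ f hf).bd y hy hy0, (hZ₂ f hf).bd y hy hy0]
  have hh : ∀ f, TstF z r f → ∃ u₁ u₂, P.Harm (Z₁ f) u₁ ∧ Q.Harm (Z₂ f) u₂ := fun f hf => by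
    obtain ⟨u₁, v₁, u₂, v₂, a1, -, a3, -, -⟩ := hS _ _ _ _ (hmd f hf) (hmd f hf)
    exact ⟨u₁, u₂, a1, a3⟩
  choose! U₁ U₂ hU using hh
  -- linearity of the sections
  have zl₁ : ∀ f g, TstF z r f → TstF z r g → ∀ a b : ℂ,
      U₁ (fun y => a • f y + b • g y) = a • U₁ f + b • U₁ g := by
    intro f g hf hg a b
    have hfg := hf.lin hg a b
    refine hU₁ _ _ _ _ (hU _ hfg).1 (hL₁ _ _ _ _ a b (hU f hf).1 (hU g hg).1)
      fun x _ => ?_
    have a1 := hZ₁ _ hfg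
    have a2 := hZ₁ _ hf
    have a3 := hZ₁ _ hg
    show _ = a • Z₁ f x + b • Z₁ g x
    by_cases hx : x ∈ e₁ '' D₁
    · obtain ⟨y, hy, rfl⟩ := hx
      rw [a1.eq y hy, a2.eq y hy, a3.eq y hy, hf.ext, hg.ext, hfg.ext, ← map_smul, ← map_smul,
        ← map_add]
    · have b1 : Z₁ (fun y => a • f y + b • g y) x = 0 :=
        image_eq_zero_of_notMem_tsupport fun h' => hx (a1.ts h')
      have b2 : Z₁ f x = 0 := image_eq_zero_of_notMem_tsupport fun h' => hx (a2.ts h')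
      have b3 : Z₁ g x = 0 := image_eq_zero_of_notMem_tsupport fun h' => hx (a3.ts h')
      rw [b1, b2, b3]
      simp
  have zl₂ : ∀ f g, TstF z r f → TstF z r g → ∀ a b : ℂ,
      U₂ (fun y => a • f y + b • g y) = a • U₂ f + b • U₂ g := by
    intro f g hf hg a b
    have hfg := hf.lin hg a b
    refine hU₂ _ _ _ _ (hU _ hfg).2 (hL₂ _ _ _ _ a b (hU f hf).2 (hU g hg).2)
      fun x _ => ?_
    have a1 := hZ₂ _ hfg
    have a2 := hZ₂ _ hf
    have a3 := hZ₂ _ hg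
    show _ = a • Z₂ f x + b • Z₂ g x
    by_cases hx : x ∈ e₂ '' D₂
    · obtain ⟨y, hy, rfl⟩ := hx
      rw [a1.eq y hy, a2.eq y hy, a3.eq y hy, hf.ext, hg.ext, hfg.ext, ← map_smul, ← map_smul,
        ← map_add]
    · have b1 : Z₂ (fun y => a • f y + b • g y) x = 0 :=
        image_eq_zero_of_notMem_tsupport fun h' => hx (a1.ts h')
      have b2 : Z₂ f x = 0 := image_eq_zero_of_notMem_tsupport fun h' => hx (a2.ts h')
      have b3 : Z₂ g x = 0 := image_eq_zero_of_notMem_tsupport fun h' => hx (a3.ts h')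
      rw [b1, b2, b3]
      simp
  -- fluxes
  have hfl : ∀ u ∈ PP P Q G, ∀ x ∈ HB z r, x 0 = 0 →
      vN e₁ S₁ Y₁ u.1 x = vN e₂ S₂ Y₂ u.2 x ∧
      flux W₁.toLD 0 (vN e₁ S₁ Y₁ u.1) x = flux W₂.toLD 0 (vN e₂ S₂ Y₂ u.2) x :=
    (pcERel hP hG hS h₁ h₂ r hr hrr).2
  have hb0 : ∀ v : Fib N, ∀ x ∈ HB z r, x 0 = 0 →
      flux W₁.toLD 0 (fun _ => v) x = flux W₂.toLD 0 (fun _ => v) x := by
    intro v x hx hx0
    rw [flux_const_sum, flux_const_sum W₂.toLD]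
    refine Finset.sum_congr rfl fun j _ => ?_
    have e1 := (hfl (s j) (hs j) x hx hx0).2
    rw [flux_congr_at hrel (vN_frame h₁ j) (hsub hx) 0,
      flux_congr_at hrel (vN_frame h₂ j) (hsub hx) 0] at e1
    rw [e1]
  have hg0 : ∀ k, ∀ x ∈ HB z r, x 0 = 0 → gg W₁.g 0 k x = gg W₂.g 0 k x := by
    intro a x hx hx0
    obtain ⟨e1, e2⟩ := hfl (t a) (ht a) x hx hx0
    rw [flux_congr_at hrel (vN_coord h₁ a) (hsub hx) 0,
      flux_congr_at hrel (vN_coord h₂ a) (hsub hx) 0] at e2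
    rw [vN_coord h₁ a (hsub hx), vN_coord h₂ a (hsub hx)] at e1
    rw [flux_split, flux_split W₂.toLD, e1, hb0 _ x hx hx0, add_left_inj] at e2
    have key : ∀ W : Model n N, IsMod j0 W (HB z r₀) →
        ((∑ k, gg W.g 0 k x • pd k (W.c a) x) j0).re = gg W.g 0 a x := by
      intro W hW
      have k1 : ∀ k, (pd k (W.c a) x j0).re = if k = a then 1 else 0 := by
        intro k
        rw [← pd_re hrel (hW.sol a).1 j0 (hsub hx) k,
          hrel.pd_congr (fun y hy => hW.re a y hy) (hsub hx) k, dc_pd_coord hx.2 k a]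
      have k2 : ((∑ k, gg W.g 0 k x • pd k (W.c a) x) j0).re =
          ∑ k, gg W.g 0 k x * (pd k (W.c a) x j0).re := by
        rw [show (∑ k, gg W.g 0 k x • pd k (W.c a) x) j0 =
          ∑ k, (gg W.g 0 k x • pd k (W.c a) x) j0 by
            simp [Finset.sum_apply], Complex.re_sum]
        refine Finset.sum_congr rfl fun k _ => ?_
        simp
      rw [k2]
      simp only [k1, mul_ite, mul_one, mul_zero, Finset.sum_ite_eq', Finset.mem_univ, if_true]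
    have e3 := congrArg (fun v : Fib N => (v j0).re) e2
    simp only at e3
    rwa [key W₁ h₁.model, key W₂ h₂.model] at e3
  refine ⟨C₁ + C₂, fun f => vN e₁ S₁ Y₁ (U₁ f), fun f => vN e₂ S₂ Y₂ (U₂ f), by positivity, ?_,
    fun f hf => ⟨(U₁ f, U₂ f), ⟨Z₁ f, Z₂ f, hmd f hf, (hU f hf).1, (hU f hf).2⟩, rfl, rfl⟩⟩
  refine
    { sol₁ := fun f hf => (k₁ f hf _ (hZ₁ f hf) _ (hU f hf).1).1
      sol₂ := fun f hf => (k₂ f hf _ (hZ₂ f hf) _ (hU f hf).2).1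
      val₁ := fun f hf => (k₁ f hf _ (hZ₁ f hf) _ (hU f hf).1).2.1
      val₂ := fun f hf => (k₂ f hf _ (hZ₂ f hf) _ (hU f hf).2).2.1
      fl := fun f hf x hx hx0 => (hfl (U₁ f, U₂ f)
        ⟨Z₁ f, Z₂ f, hmd f hf, (hU f hf).1, (hU f hf).2⟩ x hx hx0).2
      lin₁ := fun f g hf hg a b x => ?_
      lin₂ := fun f g hf hg a b x => ?_
      e₁ := fun f hf => ?_
      e₂ := fun f hf => ?_
      ok₁ := h₁.model.ok
      ok₂ := h₂.model.ok
      cs₁ := h₁.model.frame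
      cs₂ := h₂.model.frame
      h₁ := fun x hx hx0 => pcH_eq hP.b1 h₁ hx hx0
      h₂ := fun x hx hx0 => pcH_eq hP.b2 h₂ hx hx0
      g0 := hg0
      b0 := hb0 }
  · simp only [vN, zl₁ f g hf hg a b, Pi.add_apply, Pi.smul_apply, map_add, map_smul]
  · simp only [vN, zl₂ f g hf hg a b, Pi.add_apply, Pi.smul_apply, map_add, map_smul]
  · obtain ⟨-, -, a5, -⟩ := k₁ f hf _ (hZ₁ f hf) _ (hU f hf).1
    refine a5.trans ?_
    have : 0 ≤ C₂ * ∫ x in HB z r, ‖Lop W₁.toLD f x‖ ^ 2 :=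
      mul_nonneg hC₂ (integral_nonneg fun _ => sq_nonneg _)
    linarith
  · obtain ⟨-, -, -, b6⟩ := k₂ f hf _ (hZ₂ f hf) _ (hU f hf).2
    refine b6.trans ?_
    have : 0 ≤ C₁ * ∫ x in HB z r, hn f x :=
      mul_nonneg hC₁ (integral_nonneg fun _ => hn_nonneg _ _)
    linarith

end Vale.Agent.P088.R2.H509.S4

end
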