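import Vale.Agent.P088.R2.H509.S4.N2
import Vale.Agent.P088.R2.H509.S3.Tv
import Vale.Agent.P088.R2.H455.S4.Core4

/-!
# P088, stage 4: dictionary between `E n` and `V n` for systems
-/

set_option linter.all false

open Bundle Manifold MeasureTheory Set Filter Topology Metric
open scoped ContDiff Matrix

noncomputable section

namespace Vale.Agent.P088.R2.H509.S4

open Vale.Agent.P088 Vale.Agent.P088.EYM
open Vale.Agent.P088.LR (V MF)
open Vale.Agent.P088.LR.U (MC)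
open Vale.Agent.P088.PJ (TP kp)
open Vale.Agent.P088.HY.T3 (Eb)
open Vale.Agent.P088.S4 (pdv MoV nv StpN)
open Vale.Agent.P088.R2.H509.S3

variable {n N : ℕ}

/-! ### Endomorphisms and matrices -/

/-- the matrix of an endomorphism -/
def mt (T : EndF N) : Matrix (Fin N) (Fin N) ℂ :=
  Matrix.of fun a b => T (EuclideanSpace.single b (1 : ℂ)) a

theorem mt_mulVec (T : EndF N) (v : Fin N → ℂ) :
    mt T *ᵥ v = WithLp.ofLp (T (WithLp.toLp 2 v)) := by
  have h1 : (WithLp.toLp 2 v : Fib N) =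
      ∑ j, v j • (EuclideanSpace.single j (1 : ℂ) : Fib N) := by
    ext i
    simp [Pi.single_apply]
  funext a
  rw [h1]
  simp only [map_sum, map_smul, Matrix.mulVec, dotProduct, mt, Matrix.of_apply]
  rw [WithLp.ofLp_sum, Finset.sum_apply]
  refine Finset.sum_congr rfl fun j _ => ?_
  rw [WithLp.ofLp_smul, Pi.smul_apply, smul_eq_mul, mul_comm]

theorem mt_smul (c : ℝ) (T : EndF N) : mt (c • T) = (c : ℂ) • mt T := by
  ext a b
  simp only [mt, Matrix.of_apply, Matrix.smul_apply]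
  show (c • T (EuclideanSpace.single b (1 : ℂ))) a = _
  rw [PiLp.smul_apply, smul_eq_mul, Complex.real_smul]

theorem mt_add (S T : EndF N) : mt (S + T) = mt S + mt T := by
  ext a b
  simp only [mt, Matrix.of_apply, Matrix.add_apply]
  rfl

theorem mt_sub (S T : EndF N) : mt (S - T) = mt S - mt T := by
  ext a b
  simp only [mt, Matrix.of_apply, Matrix.sub_apply]
  rfl

theorem mt_zero : mt (0 : EndF N) = 0 := by
  ext a b
  simp only [mt, Matrix.of_apply, Matrix.zero_apply]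
  rfl

theorem mt_sum {ι : Type*} (s : Finset ι) (T : ι → EndF N) :
    mt (∑ i ∈ s, T i) = ∑ i ∈ s, mt (T i) := by
  classical
  induction s using Finset.induction_on with
  | empty => simp [mt_zero]
  | insert a s ha ih => rw [Finset.sum_insert ha, Finset.sum_insert ha, mt_add, ih]

theorem nv_ofLp (v : Fib N) : nv (WithLp.ofLp v) = ‖v‖ ^ 2 := by
  rw [EuclideanSpace.norm_sq_eq]
  rfl

/-- The data of a model in matrix form, at `z + x`. -/
structure Fld [NeZero n] (W : LD n N) (z : E n) (D : Set (V n)) (s : MF n) (P : MC n N)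
    (G : Fin n → MC n N) : Prop where
  s : ∀ x ∈ D, 0 ≤ x 0 → ∀ i j, s x i j = gg W.g i j (em z x)
  P : ∀ x ∈ D, 0 ≤ x 0 → P x = mt (W.h (em z x))
  G : ∀ x ∈ D, 0 ≤ x 0 → ∀ i, G i x =
    mt (W.h (em z x) * W.B i (em z x) - ContinuousLinearMap.adjoint (W.B i (em z x)) * W.h (em z x))

/-! ### Derivatives -/

section der

variable [NeZero n]

theorem pd_meG {F' : Type*} [NormedAddCommGroup F'] [NormedSpace ℝ F'] {z : E n} {F : V n → F'}
    {y : E n} (hy : y ∈ Hs n) (hF : DifferentiableAt ℝ F (me z y)) (i : Fin n) :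
    pd i (fun y => F (me z y)) y = LR.pd i F (me z y) := by
  have h1 : HasFDerivAt (fun y => F (me z y)) ((fderiv ℝ F (me z y)).comp meL) y :=
    hF.hasFDerivAt.comp y (has_me z y)
  rw [pd_of_has hy h1.hasFDerivWithinAt i, ContinuousLinearMap.comp_apply, meL_ev]
  rfl

/-- the section which corresponds to a column function -/
def cE (z : E n) (f : V n → Fin N → ℂ) (y : E n) : Fib N := WithLp.toLp 2 (f (me z y))

theorem cE_smooth {z : E n} {f : V n → Fin N → ℂ} (hf : ContDiff ℝ ∞ f) :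
    ContDiff ℝ ∞ (cE z f) := by
  exact ((PiLp.continuousLinearEquiv 2 ℝ (fun _ : Fin N => ℂ)).symm.toContinuousLinearMap).contDiff.comp
    (hf.comp (contDiff_me z))

theorem comp_pd {D : Set (E n)} (hD : RelOpen D) {c : E n → Fib N} (hc : ContDiffOn ℝ ∞ c D)
    {x : E n} (hx : x ∈ D) (k : Fin n) (a : Fin N) : pd k c x a = pd k (fun y => c y a) x := by
  have h := hD.pd_clm (((EuclideanSpace.proj (𝕜 := ℂ) a).restrictScalars ℝ : Fib N →L[ℝ] ℂ)) hc hx k
  exact h.symm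

theorem pd_cE {z : E n} {f : V n → Fin N → ℂ} (hf : ContDiff ℝ ∞ f) {y : E n} (hy : y ∈ Hs n)
    (i : Fin n) : pd i (cE z f) y = WithLp.toLp 2 (pdv i f (me z y)) := by
  have hrel : RelOpen (univ ∩ Hs n) := ⟨univ, isOpen_univ, rfl⟩
  ext a
  rw [comp_pd hrel (cE_smooth hf).contDiffOn ⟨mem_univ _, hy⟩ i a]
  have h1 : ContDiff ℝ ∞ fun x => f x a := contDiff_pi.1 hf a
  exact pd_meG (F := fun x => f x a) hy (h1.differentiable (by simp) _) i

/-- test functions -/
theorem tstF_cE {z : E n} {r : ℝ} {f : V n → Fin N → ℂ} (hr : 0 < r) (hf : ContDiff ℝ ∞ f)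
    (hc : HasCompactSupport f) (ht : tsupport f ⊆ Eb (0 : V n) r) : TstF z r (cE z f) := by
  refine ⟨cE_smooth hf, ?_⟩
  have hK : IsCompact (em z '' tsupport f) := hc.image (continuous_em z)
  have hs : em z '' tsupport f ⊆ ball z r := by
    rintro _ ⟨x, hx, rfl⟩
    exact (em_ball hr x).2 (ht hx)
  obtain ⟨r', hr', h1⟩ := exists_lt_subset_ball hK.isClosed hs
  refine ⟨r', hr', fun y hy => ?_⟩
  unfold cE
  rw [image_eq_zero_of_notMem_tsupport fun h2 => hy (h1 ⟨me z y, h2, em_me z y⟩)]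
  rfl

/-- derivatives at interior points -/
theorem pdv_em {z : E n} (hz : z 0 = 0) {r : ℝ} (hr : 0 < r) {Φ : E n → Fib N}
    (hΦ : ContDiffOn ℝ ∞ Φ (HB z r)) {x : V n} (hx : x ∈ Eb (0 : V n) r) (hx0 : 0 < x 0)
    (i : Fin n) : pdv i (fun y => WithLp.ofLp (Φ (em z y))) x = WithLp.ofLp (pd i Φ (em z x)) := by
  have hxH : em z x ∈ OB z r := ⟨(em_ball hr x).2 hx, by
    show 0 < em z x 0
    rw [em_zero hz]; exact hx0⟩
  have hxB : em z x ∈ HB z r := (em_HB hz hr x).2 ⟨hx, fun h => absurd h (not_lt.2 hx0.le)⟩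
  funext a
  rw [comp_pd (HB_rel z r) hΦ hxB i a, pd_interior hxH.2]
  have hs : ContDiffOn ℝ ∞ (fun y => Φ y a) (HB z r) :=
    ((EuclideanSpace.proj (𝕜 := ℂ) a).restrictScalars ℝ : Fib N →L[ℝ] ℂ).contDiff.comp_contDiffOn hΦ
  have hd : DifferentiableAt ℝ (fun y => Φ y a) (em z x) :=
    (hs.contDiffAt (OB_mem_nhds hxH)).differentiableAt (by simp)
  have h2 : HasFDerivAt (fun x => Φ (em z x) a) ((fderiv ℝ (fun y => Φ y a) (em z x)).comp emL) x :=
    hd.hasFDerivAt.comp x (has_em z x)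
  show fderiv ℝ (fun y => Φ (em z y) a) x (Pi.single i 1) = _
  rw [h2.fderiv, ContinuousLinearMap.comp_apply, emL_single]

/-! ### The extension by zero, complex -/

theorem xz_re {z : E n} (g : E n → ℂ) (x : V n) :
    xz z g x = ((xz z (fun y => (g y).re) x : ℝ) : ℂ) +
      ((xz z (fun y => (g y).im) x : ℝ) : ℂ) * Complex.I := by
  by_cases hx : 0 ≤ x 0
  · rw [xz_of hx, xz_of hx, xz_of hx, Complex.re_add_im]
  · rw [xz_neg (not_le.1 hx), xz_neg (not_le.1 hx), xz_neg (not_le.1 hx)]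
    simp

theorem xzc_C1 {z : E n} (hz : z 0 = 0) {r : ℝ} (hr : 0 < r) {q : E n → ℂ}
    (hq : ContDiffOn ℝ ∞ q (HB z r)) (h0 : ∀ y ∈ HB z r, y 0 = 0 → q y = 0)
    (h1 : ∀ k, ∀ y ∈ HB z r, y 0 = 0 → pd k q y = 0) :
    ContDiffOn ℝ 1 (xz z q) (Eb (0 : V n) r) ∧
    ∀ i, ∀ x ∈ Eb (0 : V n) r, LR.pd i (xz z q) x = xz z (pd i q) x := by
  have hrel := HB_rel z r
  have hre : ContDiffOn ℝ ∞ (fun y => (q y).re) (HB z r) :=
    Complex.reCLM.contDiff.comp_contDiffOn hq
  have him : ContDiffOn ℝ ∞ (fun y => (q y).im) (HB z r) :=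
    Complex.imCLM.contDiff.comp_contDiffOn hq
  have pre : ∀ k, ∀ y ∈ HB z r, pd k (fun y => (q y).re) y = (pd k q y).re := fun k y hy =>
    hrel.pd_clm Complex.reCLM hq hy k
  have pim : ∀ k, ∀ y ∈ HB z r, pd k (fun y => (q y).im) y = (pd k q y).im := fun k y hy =>
    hrel.pd_clm Complex.imCLM hq hy k
  obtain ⟨a1, a2⟩ := xz_C1 hz hr hre (fun y hy hy0 => by rw [h0 y hy hy0]; rfl)
    (fun k y hy hy0 => by rw [pre k y hy, h1 k y hy hy0]; rfl)
  obtain ⟨b1, b2⟩ := xz_C1 hz hr him (fun y hy hy0 => by rw [h0 y hy hy0]; rfl)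
    (fun k y hy hy0 => by rw [pim k y hy, h1 k y hy hy0]; rfl)
  have hfun : xz z q = fun x => ((xz z (fun y => (q y).re) x : ℝ) : ℂ) +
      ((xz z (fun y => (q y).im) x : ℝ) : ℂ) * Complex.I := funext fun x => xz_re q x
  have hC : ContDiffOn ℝ 1 (xz z q) (Eb (0 : V n) r) := by
    rw [hfun]
    exact (Complex.ofRealCLM.contDiff.comp_contDiffOn a1).add
      ((Complex.ofRealCLM.contDiff.comp_contDiffOn b1).mul contDiffOn_const)
  refine ⟨hC, fun i x hx => ?_⟩
  have da : DifferentiableAt ℝ (xz z fun y => (q y).re) x :=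
    (a1.contDiffAt ((Eb_open r).mem_nhds hx)).differentiableAt (by simp)
  have db : DifferentiableAt ℝ (xz z fun y => (q y).im) x :=
    (b1.contDiffAt ((Eb_open r).mem_nhds hx)).differentiableAt (by simp)
  have dc : HasFDerivAt (fun x => ((xz z (fun y => (q y).re) x : ℝ) : ℂ) +
      ((xz z (fun y => (q y).im) x : ℝ) : ℂ) * Complex.I)
      (Complex.ofRealCLM.comp (fderiv ℝ (xz z fun y => (q y).re) x) +
        (Complex.ofRealCLM.comp (fderiv ℝ (xz z fun y => (q y).im) x)).smulRight Complex.I) x := by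
    have h2 := (Complex.ofRealCLM.hasFDerivAt.comp x da.hasFDerivAt)
    have h3 := (Complex.ofRealCLM.hasFDerivAt.comp x db.hasFDerivAt).mul_const Complex.I
    refine (h2.add h3).congr_fderiv ?_
    ext v
    simp [mul_comm]
  have e1 := a2 i x hx
  have e2 := b2 i x hx
  have e3 : LR.pd i (xz z q) x = ((LR.pd i (xz z fun y => (q y).re) x : ℝ) : ℂ) +
      ((LR.pd i (xz z fun y => (q y).im) x : ℝ) : ℂ) * Complex.I := by
    unfold LR.pd
    rw [hfun, dc.fderiv]
    simp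
  rw [e3, e1, e2, xz_re (pd i q) x]
  by_cases hx0 : 0 ≤ x 0
  · have hxB : em z x ∈ HB z r := (em_HB hz hr x).2 ⟨hx, fun h => absurd h (not_lt.2 hx0)⟩
    rw [xz_of hx0, xz_of hx0, xz_of hx0, xz_of hx0, pre i _ hxB, pim i _ hxB]
  · rw [xz_neg (not_le.1 hx0), xz_neg (not_le.1 hx0), xz_neg (not_le.1 hx0),
      xz_neg (not_le.1 hx0)]

/-- the extension by zero of a section, as a column function -/
def wV (z : E n) (p : E n → Fib N) : V n → Fin N → ℂ := fun x a => xz z (fun y => p y a) x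

theorem wV_of {z : E n} {p : E n → Fib N} {x : V n} (hx : 0 ≤ x 0) :
    wV z p x = WithLp.ofLp (p (em z x)) := by
  funext a
  exact xz_of hx

theorem wV_neg {z : E n} {p : E n → Fib N} {x : V n} (hx : x 0 < 0) : wV z p x = 0 := by
  funext a
  exact xz_neg hx

theorem wV_C1 {z : E n} (hz : z 0 = 0) {r : ℝ} (hr : 0 < r) {p : E n → Fib N}
    (hp : ContDiffOn ℝ ∞ p (HB z r)) (h0 : ∀ y ∈ HB z r, y 0 = 0 → p y = 0)
    (h1 : ∀ k, ∀ y ∈ HB z r, y 0 = 0 → pd k p y = 0) :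
    ContDiffOn ℝ 1 (wV z p) (Eb (0 : V n) r) ∧
    ∀ i, ∀ x ∈ Eb (0 : V n) r, pdv i (wV z p) x = wV z (pd i p) x := by
  have hrel := HB_rel z r
  have hs : ∀ a, ContDiffOn ℝ ∞ (fun y => p y a) (HB z r) := fun a =>
    ((EuclideanSpace.proj (𝕜 := ℂ) a).restrictScalars ℝ : Fib N →L[ℝ] ℂ).contDiff.comp_contDiffOn hp
  have key := fun a => xzc_C1 hz hr (hs a) (fun y hy hy0 => by rw [h0 y hy hy0]; rfl)
    (fun k y hy hy0 => by rw [← comp_pd hrel hp hy k a, h1 k y hy hy0]; rfl)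
  refine ⟨contDiffOn_pi.2 fun a => (key a).1, fun i x hx => ?_⟩
  funext a
  show LR.pd i (xz z fun y => p y a) x = xz z (fun y => pd i p y a) x
  rw [(key a).2 i x hx]
  by_cases hx0 : 0 ≤ x 0
  · have hxB : em z x ∈ HB z r := (em_HB hz hr x).2 ⟨hx, fun h => absurd h (not_lt.2 hx0)⟩
    rw [xz_of hx0, xz_of hx0, comp_pd hrel hp hxB i a]
  · rw [xz_neg (not_le.1 hx0), xz_neg (not_le.1 hx0)]

end der

end Vale.Agent.P088.R2.H509.S4

end
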