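import Vale.Agent.P088.R2.H509.S4.N2

/-!
# P088, stage 4: the operator in divergence form and the weak equation at the boundary
-/

set_option linter.all false

open Bundle Manifold MeasureTheory Set Filter Topology Metric
open scoped ContDiff

noncomputable section

namespace Vale.Agent.P088.R2.H509.S4

open Vale.Agent.P088 Vale.Agent.P088.EYM
open Vale.Agent.P088.R2.H509.S3

variable {n N : ℕ} [NeZero n]

/-- the first order coefficients of `h Lop` -/
def kW (L : LD n N) (j : Fin n) (x : E n) : EndF N :=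
  ∑ k, gg L.g j k x • (L.h x * L.B k x - ContinuousLinearMap.adjoint (L.B k x) * L.h x)

/-- the flux of `h Lop` -/
def fW (L : LD n N) (j : Fin n) (c : E n → Fib N) (x : E n) : Fib N :=
  ∑ k, gg L.g j k x • L.h x (pd k c x)

/-- `h Lop` in divergence form -/
def Ko (L : LD n N) (c : E n → Fib N) (x : E n) : Fib N :=
  ∑ j, pd j (fW L j c) x + ∑ j, kW L j x (pd j c x)

section

variable {L : LD n N} {D : Set (E n)}

theorem fW_smooth (hD : RelOpen D) (hL : L.Ok D) {c : E n → Fib N} (hc : ContDiffOn ℝ ∞ c D)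
    (j : Fin n) : ContDiffOn ℝ ∞ (fW L j c) D := by
  unfold fW
  exact ContDiffOn.sum fun k _ => (hD.gg_smooth hL.g_smooth hL.g_pos j k).smul
    (smooth_eval hL.h_smooth (hD.pd_smooth hc k))

theorem kW_smooth (hD : RelOpen D) (hL : L.Ok D) (j : Fin n) : ContDiffOn ℝ ∞ (kW L j) D := by
  unfold kW
  exact ContDiffOn.sum fun k _ => (hD.gg_smooth hL.g_smooth hL.g_pos j k).smul
    ((smooth_mul hL.h_smooth (hL.B_smooth k)).sub
      (smooth_mul (smooth_adj (hL.B_smooth k)) hL.h_smooth))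

theorem gg_symm (hL : L.Ok D) {x : E n} (hx : x ∈ D) (j k : Fin n) :
    gg L.g j k x = gg L.g k j x := by
  unfold gg
  rw [Jacobi_inv_symm (hL.g_pos x hx) j k]

theorem fW_const (L : LD n N) (j : Fin n) (v : Fib N) : fW L j (fun _ => v) = fun _ => 0 := by
  funext y
  unfold fW
  simp only [pd_const, map_zero, smul_zero, Finset.sum_const_zero]

theorem h_lop (hD : RelOpen D) (hL : L.Ok D) {x : E n} (hx : x ∈ D)
    (hv : ∀ v : Fib N, Lop L (fun _ => v) x = 0) {c : E n → Fib N} (hc : ContDiffOn ℝ ∞ c D) :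
    L.h x (Lop L c x) = Ko L c x := by
  -- the zeroth order part
  set F : Fin n → E n → EndF N := fun j y => ∑ k, gg L.g j k y • (L.h y * L.B k y) with hF
  have hFs : ∀ j, ContDiffOn ℝ ∞ (F j) D := fun j =>
    ContDiffOn.sum fun k _ => (hD.gg_smooth hL.g_smooth hL.g_pos j k).smul
      (smooth_mul hL.h_smooth (hL.B_smooth k))
  set R : EndF N := ∑ j, (pd j (F j) x - ContinuousLinearMap.adjoint (L.B j x) * F j x) with hR
  have main : ∀ c : E n → Fib N, ContDiffOn ℝ ∞ c D → L.h x (Lop L c x) =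
      ∑ j, (pd j (fW L j c) x + (F j x (pd j c x) -
        ContinuousLinearMap.adjoint (L.B j x) (fW L j c x))) + R (c x) := by
    intro c hc
    have hfl : ∀ j, ContDiffOn ℝ ∞ (flux L j c) D := fun j => by
      unfold flux
      exact ContDiffOn.sum fun k _ =>
        (hD.gg_smooth hL.g_smooth hL.g_pos j k).smul (Jacobi_nab_smooth hD hL hc k)
    have e1 : ∀ j y, L.h y (flux L j c y) = fW L j c y + F j y (c y) := by
      intro j y
      simp only [flux, fW, nab, hF, map_sum, smul_add, Finset.sum_add_distrib, map_add,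
        ContinuousLinearMap.sum_apply]
      congr 1
      · exact Finset.sum_congr rfl fun k _ => ContinuousLinearMap.map_smul_of_tower _ _ _
      · exact Finset.sum_congr rfl fun k _ => ContinuousLinearMap.map_smul_of_tower _ _ _
    have e2 : ∀ j, L.h x (pd j (flux L j c) x + L.B j x (flux L j c x)) =
        pd j (fW L j c) x + F j x (pd j c x) + pd j (F j) x (c x) -
          ContinuousLinearMap.adjoint (L.B j x) (fW L j c x + F j x (c x)) := by
      intro j
      have k1 : pd j (fun y => L.h y (flux L j c y)) x =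
          L.h x (pd j (flux L j c) x) + pd j L.h x (flux L j c x) :=
        hD.pd_eval hL.h_smooth (hfl j) (by simp) (by simp) hx j
      have k2 : pd j (fun y => L.h y (flux L j c y)) x =
          pd j (fW L j c) x + (F j x (pd j c x) + pd j (F j) x (c x)) := by
        rw [funext (e1 j)]
        rw [hD.pd_add (fW_smooth hD hL hc j) (smooth_eval (hFs j) hc) hx j,
          hD.pd_eval (hFs j) hc (by simp) (by simp) hx j]
      have k3 : pd j L.h x (flux L j c x) =
          ContinuousLinearMap.adjoint (L.B j x) (L.h x (flux L j c x)) +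
            L.h x (L.B j x (flux L j c x)) := by
        rw [hL.compat x hx j]; rfl
      rw [k2, k3, e1 j x] at k1
      rw [map_add]
      have k4 : L.h x (pd j (flux L j c) x) + L.h x (L.B j x (flux L j c x)) =
          pd j (fW L j c) x + (F j x (pd j c x) + pd j (F j) x (c x)) -
            ContinuousLinearMap.adjoint (L.B j x) (fW L j c x + F j x (c x)) := by
        rw [k1]; abel
      rw [k4]; abel
    unfold Lop
    rw [map_sum, Finset.sum_congr rfl fun j _ => e2 j, hR, ContinuousLinearMap.sum_apply,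
      ← Finset.sum_add_distrib]
    refine Finset.sum_congr rfl fun j _ => ?_
    rw [map_add]
    show _ = pd j (fW L j c) x + (F j x (pd j c x) -
      ContinuousLinearMap.adjoint (L.B j x) (fW L j c x)) +
      (pd j (F j) x (c x) - ContinuousLinearMap.adjoint (L.B j x) (F j x (c x)))
    abel
  have hR0 : ∀ v, R v = 0 := by
    intro v
    have h1 := main (fun _ => v) contDiffOn_const
    rw [hv v, map_zero] at h1
    simp only [fW_const, pd_const, map_zero, sub_zero, add_zero, Finset.sum_const_zero,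
      zero_add] at h1
    exact h1.symm
  rw [main c hc, hR0, add_zero]
  unfold Ko
  rw [Finset.sum_add_distrib]
  congr 1
  rw [Finset.sum_sub_distrib]
  have h1 : ∑ j, ContinuousLinearMap.adjoint (L.B j x) (fW L j c x) =
      ∑ j, ∑ k, gg L.g j k x • ContinuousLinearMap.adjoint (L.B k x) (L.h x (pd j c x)) := by
    simp only [fW, map_sum]
    rw [Finset.sum_comm]
    refine Finset.sum_congr rfl fun j _ => Finset.sum_congr rfl fun k _ => ?_
    rw [gg_symm hL hx j k]
    exact ContinuousLinearMap.map_smul_of_tower _ _ _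
  rw [h1, ← Finset.sum_sub_distrib]
  refine Finset.sum_congr rfl fun j _ => ?_
  simp only [hF, kW, ContinuousLinearMap.sum_apply]
  rw [← Finset.sum_sub_distrib]
  refine Finset.sum_congr rfl fun k _ => ?_
  show gg L.g j k x • (L.h x (L.B k x (pd j c x))) - _ =
    gg L.g j k x • ((L.h x (L.B k x (pd j c x))) -
      ContinuousLinearMap.adjoint (L.B k x) (L.h x (pd j c x)))
  rw [smul_sub]

end

/-! ### The bilinear pairing -/

/-- `∑ a_i b_i` -/
def bl (a b : Fib N) : ℂ := ∑ i, a i * b i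

theorem bl_add (a b c : Fib N) : bl a (b + c) = bl a b + bl a c := by
  simp only [bl, PiLp.add_apply, mul_add, Finset.sum_add_distrib]

theorem bl_sub (a b c : Fib N) : bl a (b - c) = bl a b - bl a c := by
  simp only [bl, PiLp.sub_apply, mul_sub, Finset.sum_sub_distrib]

theorem bl_sum {ι : Type*} (s : Finset ι) (a : Fib N) (b : ι → Fib N) :
    bl a (∑ j ∈ s, b j) = ∑ j ∈ s, bl a (b j) := by
  classical
  induction s using Finset.induction_on with
  | empty => simp [bl]
  | insert j s hj ih => rw [Finset.sum_insert hj, Finset.sum_insert hj, bl_add, ih]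

theorem bl_cont {D : Set (E n)} {a b : E n → Fib N} (ha : ContinuousOn a D)
    (hb : ContinuousOn b D) : ContinuousOn (fun y => bl (a y) (b y)) D := by
  unfold bl
  refine continuousOn_finsetSum _ fun i _ => ContinuousOn.mul ?_ ?_
  · exact (EuclideanSpace.proj (𝕜 := ℂ) i).continuous.comp_continuousOn ha
  · exact (EuclideanSpace.proj (𝕜 := ℂ) i).continuous.comp_continuousOn hb

theorem sm_comp {D : Set (E n)} {a : E n → Fib N} (ha : ContDiffOn ℝ ∞ a D) (i : Fin N) :
    ContDiffOn ℝ ∞ (fun y => a y i) D :=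
  ((EuclideanSpace.proj (𝕜 := ℂ) i).restrictScalars ℝ : Fib N →L[ℝ] ℂ).contDiff.comp_contDiffOn ha

theorem bl_smooth {D : Set (E n)} {a b : E n → Fib N} (ha : ContDiffOn ℝ ∞ a D)
    (hb : ContDiffOn ℝ ∞ b D) : ContDiffOn ℝ ∞ (fun y => bl (a y) (b y)) D := by
  unfold bl
  exact ContDiffOn.sum fun i _ => (sm_comp ha i).mul (sm_comp hb i)

theorem pd_bl {D : Set (E n)} (hD : RelOpen D) {a b : E n → Fib N} (ha : ContDiffOn ℝ ∞ a D)
    (hb : ContDiffOn ℝ ∞ b D) {x : E n} (hx : x ∈ D) (j : Fin n) :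
    pd j (fun y => bl (a y) (b y)) x = bl (pd j a x) (b x) + bl (a x) (pd j b x) := by
  have c1 : ∀ (c : E n → Fib N), ContDiffOn ℝ ∞ c D → ∀ i, pd j (fun y => c y i) x = pd j c x i :=
    fun c hc i => hD.pd_clm (((EuclideanSpace.proj (𝕜 := ℂ) i).restrictScalars ℝ : Fib N →L[ℝ] ℂ))
      hc hx j
  unfold bl
  have e1 : pd j (fun y => ∑ i, a y i * b y i) x = ∑ i, pd j (fun y => a y i * b y i) x :=
    hD.pd_sum (s := Finset.univ) (f := fun i y => a y i * b y i)
      (fun i _ => (sm_comp ha i).mul (sm_comp hb i)) hx j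
  rw [e1, ← Finset.sum_add_distrib]
  refine Finset.sum_congr rfl fun i _ => ?_
  have e2 : pd j (fun y => a y i * b y i) x = a x i * pd j (fun y => b y i) x +
      pd j (fun y => a y i) x * b x i := hD.pd_mul (sm_comp ha i) (sm_comp hb i) hx j
  rw [e2, c1 a ha i, c1 b hb i]
  ring

/-! ### The two solutions -/

section two

variable {W₁ W₂ : LD n N} {z : E n} {r r₀ C : ℝ} {V₁ V₂ : (E n → Fib N) → E n → Fib N}

/-- the derivatives of the two solutions agree on the flat boundary -/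
theorem PSolN.dzero (h : PSolN W₁ W₂ z r r₀ C V₁ V₂) (hrr : r < r₀) {f : E n → Fib N}
    (hf : TstF z r f) (k : Fin n) :
    ∀ x ∈ HB z r, x 0 = 0 → pd k (fun y => V₂ f y - V₁ f y) x = 0 := by
  have hsub : HB z r ⊆ HB z r₀ := CRel1_HB_mono z hrr.le
  have hrel := HB_rel z r₀
  have s₁ := (h.sol₁ f hf).1
  have s₂ := (h.sol₂ f hf).1
  have hs : ContDiffOn ℝ ∞ (fun y => V₂ f y - V₁ f y) (HB z r₀) := s₂.sub s₁
  have ht : ∀ j : Fin n, j ≠ 0 → ∀ x ∈ HB z r, x 0 = 0 →
      pd j (fun y => V₂ f y - V₁ f y) x = 0 := fun j hj x hx hx0 =>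
    dc_pd_tan hrel hs (fun y hy hy0 => by
      rw [h.val₁ f hf y hy hy0, h.val₂ f hf y hy hy0, sub_self]) hj x (hsub hx) hx0
  intro x hx hx0
  by_cases hk : k = 0
  · subst hk
    have hpd : ∀ j, pd j (fun y => V₂ f y - V₁ f y) x = pd j (V₂ f) x - pd j (V₁ f) x := fun j =>
      hrel.pd_sub s₂ s₁ (hsub hx) j
    have h1 := h.fl f hf x hx hx0
    rw [flux_split, flux_split W₂, h.val₁ f hf x (hsub hx) hx0, h.val₂ f hf x (hsub hx) hx0,
      h.b0 _ x hx hx0, add_left_inj] at h1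
    have h2 : ∑ k, gg W₁.g 0 k x • pd k (fun y => V₂ f y - V₁ f y) x = 0 := by
      simp only [hpd, smul_sub, Finset.sum_sub_distrib]
      rw [h1, sub_eq_zero]
      exact Finset.sum_congr rfl fun k _ => by rw [h.g0 k x hx hx0]
    rw [Finset.sum_eq_single 0 (fun j _ hj => by rw [ht j hj x hx hx0, smul_zero])
      (by simp)] at h2
    have h3 : 0 < gg W₁.g 0 0 x := by
      have hg : (W₁.g x).PosDef := h.ok₁.g_pos x (hsub hx)
      refine mul_pos (Real.sqrt_pos.2 hg.det_pos) ?_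
      exact hg.inv.diag_pos
    exact (smul_eq_zero.1 h2).resolve_left h3.ne'
  · exact ht k hk x hx hx0

/-- The weak equation. -/
theorem PSolN.weak (h : PSolN W₁ W₂ z r r₀ C V₁ V₂) (hrr : r < r₀) {f φ : E n → Fib N}
    (hf : TstF z r f) (hφ : TstF z r φ) :
    ∫ x in HB z r, ((∑ j, bl (pd j φ x) (fW W₂ j (fun y => V₂ f y - V₁ f y) x)) -
        ∑ j, bl (φ x) (kW W₂ j x (pd j (fun y => V₂ f y - V₁ f y) x))) =
      ∫ x in HB z r, ((∑ j, bl (pd j φ x) (fW W₁ j (V₁ f) x - fW W₂ j (V₁ f) x)) -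
        ∑ j, bl (φ x) (kW W₁ j x (pd j (V₁ f) x) - kW W₂ j x (pd j (V₁ f) x))) := by
  have hsub : HB z r ⊆ HB z r₀ := CRel1_HB_mono z hrr.le
  have hrel := HB_rel z r₀
  have s₁ := (h.sol₁ f hf).1
  have s₂ := (h.sol₂ f hf).1
  have hφs : ContDiffOn ℝ ∞ φ (HB z r₀) := hφ.sm.contDiffOn
  have hw : ContDiffOn ℝ ∞ (fun y => V₂ f y - V₁ f y) (HB z r₀) := s₂.sub s₁
  obtain ⟨r', hr', hφ0⟩ := hφ.sp
  -- the field
  set U : Fin n → E n → Fib N := fun j y => fW W₂ j (V₂ f) y - fW W₁ j (V₁ f) y with hU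
  have hUs : ∀ j, ContDiffOn ℝ ∞ (U j) (HB z r₀) := fun j =>
    (fW_smooth hrel h.ok₂ s₂ j).sub (fW_smooth hrel h.ok₁ s₁ j)
  have hUd : ∀ x ∈ HB z r₀, ∑ j, pd j (U j) x =
      ∑ j, kW W₁ j x (pd j (V₁ f) x) - ∑ j, kW W₂ j x (pd j (V₂ f) x) := by
    intro x hx
    have e1 : ∀ j, pd j (U j) x = pd j (fW W₂ j (V₂ f)) x - pd j (fW W₁ j (V₁ f)) x :=
      fun j => hrel.pd_sub (fW_smooth hrel h.ok₂ s₂ j) (fW_smooth hrel h.ok₁ s₁ j) hx j
    simp only [e1, Finset.sum_sub_distrib]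
    have e2 := h_lop hrel h.ok₁ hx (fun v => (h.cs₁ v).2 x hx) s₁
    have e3 := h_lop hrel h.ok₂ hx (fun v => (h.cs₂ v).2 x hx) s₂
    rw [(h.sol₁ f hf).2 x hx, map_zero] at e2
    rw [(h.sol₂ f hf).2 x hx, map_zero] at e3
    unfold Ko at e2 e3
    rw [eq_neg_of_add_eq_zero_left e2.symm, eq_neg_of_add_eq_zero_left e3.symm]
    abel
  have hU0 : ∀ x ∈ HB z r, x 0 = 0 → U 0 x = 0 := fun x hx hx0 => by
    have h1 := h.fl f hf x hx hx0
    rw [flux_split, flux_split W₂, h.val₁ f hf x (hsub hx) hx0, h.val₂ f hf x (hsub hx) hx0,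
      h.b0 _ x hx hx0, add_left_inj] at h1
    simp only [hU, fW, h.h₁ x (hsub hx) hx0, h.h₂ x (hsub hx) hx0,
      ContinuousLinearMap.one_apply]
    rw [h1, sub_self]
  -- the divergence theorem
  have hint : ∀ j, ∫ x in HB z r, pd j (fun y => bl (φ y) (U j y)) x = 0 := by
    intro j
    refine AGreen_int hr' (((bl_smooth hφs (hUs j)).mono hsub).of_le (by norm_cast))
      (fun x hx hxb => by simp [bl, hφ0 x hxb]) j ?_
    by_cases hj : j = 0
    · subst hj
      exact Or.inr fun x hx hx0 => by rw [hU0 x hx hx0]; simp [bl]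
    · exact Or.inl hj
  have hI : ∀ j, IntegrableOn (fun x => pd j (fun y => bl (φ y) (U j y)) x) (HB z r) := fun j =>
    intHB hrr (hrel.pd_smooth (bl_smooth hφs (hUs j)) j).continuousOn
  have hsum : ∫ x in HB z r, ∑ j, pd j (fun y => bl (φ y) (U j y)) x = 0 := by
    rw [integral_finsetSum _ fun j _ => hI j]
    exact Finset.sum_eq_zero fun j _ => hint j
  have ck : ∀ (L : LD n N), L.Ok (HB z r₀) → ∀ (c : E n → Fib N), ContDiffOn ℝ ∞ c (HB z r₀) →
      ∀ j, ContinuousOn (fun x => kW L j x (pd j c x)) (HB z r₀) := fun L hL c hc j =>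
    (smooth_eval (kW_smooth hrel hL j) (hrel.pd_smooth hc j)).continuousOn
  have cf : ∀ (L : LD n N), L.Ok (HB z r₀) → ∀ (c : E n → Fib N), ContDiffOn ℝ ∞ c (HB z r₀) →
      ∀ j, ContinuousOn (fW L j c) (HB z r₀) := fun L hL c hc j =>
    (fW_smooth hrel hL hc j).continuousOn
  have c1 : IntegrableOn (fun x => (∑ j, bl (pd j φ x) (fW W₂ j (fun y => V₂ f y - V₁ f y) x)) -
        ∑ j, bl (φ x) (kW W₂ j x (pd j (fun y => V₂ f y - V₁ f y) x))) (HB z r) :=
    intHB hrr ((continuousOn_finsetSum _ fun j _ =>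
      bl_cont (hrel.pd_smooth hφs j).continuousOn (cf W₂ h.ok₂ _ hw j)).sub
      (continuousOn_finsetSum _ fun j _ => bl_cont hφs.continuousOn (ck W₂ h.ok₂ _ hw j)))
  have c2 : IntegrableOn (fun x => (∑ j, bl (pd j φ x) (fW W₁ j (V₁ f) x - fW W₂ j (V₁ f) x)) -
        ∑ j, bl (φ x) (kW W₁ j x (pd j (V₁ f) x) - kW W₂ j x (pd j (V₁ f) x))) (HB z r) :=
    intHB hrr ((continuousOn_finsetSum _ fun j _ =>
      bl_cont (hrel.pd_smooth hφs j).continuousOn
        ((cf W₁ h.ok₁ _ s₁ j).sub (cf W₂ h.ok₂ _ s₁ j))).sub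
      (continuousOn_finsetSum _ fun j _ => bl_cont hφs.continuousOn
        ((ck W₁ h.ok₁ _ s₁ j).sub (ck W₂ h.ok₂ _ s₁ j))))
  rw [← sub_eq_zero, ← integral_sub c1 c2, ← hsum]
  refine setIntegral_congr_fun (HB_meas z r) fun x hx => ?_
  have hx' := hsub hx
  have e1 : ∀ j, pd j (fun y => bl (φ y) (U j y)) x =
      bl (pd j φ x) (U j x) + bl (φ x) (pd j (U j) x) := fun j => pd_bl hrel hφs (hUs j) hx' j
  have e2 : ∑ j, bl (φ x) (pd j (U j) x) =
      ∑ j, bl (φ x) (kW W₁ j x (pd j (V₁ f) x)) - ∑ j, bl (φ x) (kW W₂ j x (pd j (V₂ f) x)) := by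
    rw [← bl_sum, hUd x hx', bl_sub, bl_sum, bl_sum]
  have hpd : ∀ j, pd j (fun y => V₂ f y - V₁ f y) x = pd j (V₂ f) x - pd j (V₁ f) x := fun j =>
    hrel.pd_sub s₂ s₁ hx' j
  have e3 : ∀ j, fW W₂ j (fun y => V₂ f y - V₁ f y) x = fW W₂ j (V₂ f) x - fW W₂ j (V₁ f) x := by
    intro j
    simp only [fW, hpd, map_sub, smul_sub, Finset.sum_sub_distrib]
  have e4 : ∑ j, pd j (fun y => bl (φ y) (U j y)) x =
      ∑ j, bl (pd j φ x) (U j x) + (∑ j, bl (φ x) (kW W₁ j x (pd j (V₁ f) x)) -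
        ∑ j, bl (φ x) (kW W₂ j x (pd j (V₂ f) x))) := by
    rw [← e2, ← Finset.sum_add_distrib]
    exact Finset.sum_congr rfl fun j _ => e1 j
  show _ = ∑ j, pd j (fun y => bl (φ y) (U j y)) x
  rw [e4]
  simp only [e3, hpd, hU, bl_sub, map_sub, Finset.sum_sub_distrib]
  ring

end two

end Vale.Agent.P088.R2.H509.S4

end
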