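import Vale.Agent.P088.R2.H509.S4.N3
import Vale.Agent.P088.R2.H509.S4.N4
import Vale.Agent.P088.R2.H509.S3.St

/-!
# P088, stage 4: the transfer of finite families at a boundary point, all `N`
-/

set_option linter.all false

open Bundle Manifold MeasureTheory Set Filter Topology Metric
open scoped ContDiff Matrix

noncomputable section

namespace Vale.Agent.P088.R2.H509.S4

open Vale.Agent.P088 Vale.Agent.P088.EYM
open Vale.Agent.P088.LR (V MF)
open Vale.Agent.P088.LR.U (MC)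
open Vale.Agent.P088.PJ (TP kp)
open Vale.Agent.P088.HY.T3 (Eb)
open Vale.Agent.P088.S4 (pdv MoV nv StpN)
open Vale.Agent.P088.R2.H509.S3

variable {n N : ℕ} [NeZero n]

/-! ### Fields -/

section fld

variable {W : LD n N} {z : E n} {D : Set (V n)} {s : MF n} {P : MC n N} {G : Fin n → MC n N}

theorem Fld.T (h : Fld W z D s P G) {x : V n} (hx : x ∈ D) (hx0 : 0 ≤ x 0) (i j : Fin n)
    (v : Fin N → ℂ) : TP s P i j x *ᵥ v =
      WithLp.ofLp (gg W.g i j (em z x) • W.h (em z x) (WithLp.toLp 2 v)) := by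
  show ((s x i j : ℂ) • P x) *ᵥ v = _
  rw [Matrix.smul_mulVec, h.s x hx hx0 i j, h.P x hx hx0, mt_mulVec]
  rw [WithLp.ofLp_smul]
  funext a
  simp only [Pi.smul_apply, smul_eq_mul, Complex.real_smul]

theorem Fld.K (h : Fld W z D s P G) {x : V n} (hx : x ∈ D) (hx0 : 0 ≤ x 0) (i : Fin n) :
    kp s G i x = mt (kW W i (em z x)) := by
  show ∑ j, (s x i j : ℂ) • G j x = _
  unfold kW
  rw [mt_sum]
  refine Finset.sum_congr rfl fun j _ => ?_
  rw [mt_smul, h.s x hx hx0 i j, h.G x hx hx0 j]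

theorem Fld.Kv (h : Fld W z D s P G) {x : V n} (hx : x ∈ D) (hx0 : 0 ≤ x 0) (i : Fin n)
    (v : Fin N → ℂ) : kp s G i x *ᵥ v = WithLp.ofLp (kW W i (em z x) (WithLp.toLp 2 v)) := by
  rw [h.K hx hx0, mt_mulVec]

theorem pdv_cE {f : V n → Fin N → ℂ} (hf : ContDiff ℝ ∞ f) {x : V n} {z : E n} (hz : z 0 = 0)
    (hx0 : 0 ≤ x 0) (i : Fin n) :
    pdv i f x = WithLp.ofLp (pd i (cE z f) (em z x)) := by
  have h1 : em z x ∈ Hs n := by
    show 0 ≤ em z x 0
    rw [em_zero hz]; exact hx0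
  rw [pd_cE hf h1 i, me_em]

theorem pdv_congr {u v : V n → Fin N → ℂ} {x : V n} (h : u =ᶠ[𝓝 x] v) (i : Fin n) :
    pdv i u x = pdv i v x := by
  funext a
  show fderiv ℝ (fun y => u y a) x _ = fderiv ℝ (fun y => v y a) x _
  have h1 : (fun y => u y a) =ᶠ[𝓝 x] fun y => v y a := h.mono fun y hy => congrFun hy a
  rw [h1.fderiv_eq]

/-- The operator at interior points. -/
theorem Fld.M {r r₀ : ℝ} (hz : z 0 = 0) (hr : 0 < r) (hrr : r < r₀)
    (h : Fld W z (Eb (0 : V n) r) s P G) (hW : W.Ok (HB z r₀))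
    (hcs : ∀ v : Fib N, Sol W (HB z r₀) (fun _ => v)) {f : V n → Fin N → ℂ}
    (hf : ContDiff ℝ ∞ f) {x : V n} (hx : x ∈ Eb (0 : V n) r) (hx0 : 0 < x 0) :
    MoV (TP s P) (kp s G) f x = WithLp.ofLp (Ko W (cE z f) (em z x)) := by
  have hrel := HB_rel z r₀
  have hsub : HB z r ⊆ HB z r₀ := CRel1_HB_mono z hrr.le
  have hxB : em z x ∈ HB z r := (em_HB hz hr x).2 ⟨hx, fun h => absurd h (not_lt.2 hx0.le)⟩
  have hcs : ContDiffOn ℝ ∞ (cE z f) (HB z r₀) := (cE_smooth hf).contDiffOn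
  have key : ∀ y ∈ Eb (0 : V n) r, 0 ≤ y 0 → ∀ i, ∑ l, TP s P i l y *ᵥ pdv l f y =
      WithLp.ofLp (fW W i (cE z f) (em z y)) := by
    intro y hy hy0 i
    unfold fW
    rw [WithLp.ofLp_sum]
    refine Finset.sum_congr rfl fun l _ => ?_
    rw [h.T hy hy0, pdv_cE hf hz hy0]
  have e1 : ∀ i, pdv i (fun y => ∑ l, TP s P i l y *ᵥ pdv l f y) x =
      WithLp.ofLp (pd i (fW W i (cE z f)) (em z x)) := by
    intro i
    have hev : (fun y => ∑ l, TP s P i l y *ᵥ pdv l f y) =ᶠ[𝓝 x]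
        fun y => WithLp.ofLp (fW W i (cE z f) (em z y)) := by
      filter_upwards [(Eb_open r).mem_nhds hx,
        (isOpen_lt continuous_const (continuous_apply (0 : Fin n))).mem_nhds hx0] with y hy hy0
      exact key y hy (le_of_lt hy0) i
    rw [pdv_congr hev i]
    exact pdv_em hz hr ((fW_smooth hrel hW hcs i).mono hsub) hx hx0 i
  unfold MoV Ko
  rw [WithLp.ofLp_add, WithLp.ofLp_sum, WithLp.ofLp_sum]
  congr 1
  · exact Finset.sum_congr rfl fun i _ => e1 i
  · refine Finset.sum_congr rfl fun i _ => ?_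
    rw [h.Kv hx hx0.le, pdv_cE hf hz hx0.le]

end fld

/-! ### Linear combinations -/

theorem pd_csmul {D : Set (E n)} (hD : RelOpen D) (c : ℂ) {F : E n → Fib N}
    (hF : ContDiffOn ℝ ∞ F D) {x : E n} (hx : x ∈ D) (i : Fin n) :
    pd i (fun y => c • F y) x = c • pd i F x :=
  hD.pd_clm ((c • ContinuousLinearMap.id ℂ (Fib N)).restrictScalars ℝ : Fib N →L[ℝ] Fib N) hF hx i

theorem pd_combC {ι : Type*} [Fintype ι] {D : Set (E n)} (hD : RelOpen D) {F : ι → E n → Fib N}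
    (hF : ∀ q, ContDiffOn ℝ ∞ (F q) D) (c : ι → ℂ) {x : E n} (hx : x ∈ D) (i : Fin n) :
    pd i (fun y => ∑ q, c q • F q y) x = ∑ q, c q • pd i (F q) x := by
  have e1 : pd i (fun y => ∑ q, c q • F q y) x = ∑ q, pd i (fun y => c q • F q y) x :=
    hD.pd_sum (s := Finset.univ) (f := fun q y => c q • F q y)
      (fun q _ => (hF q).const_smul (c q)) hx i
  rw [e1]
  exact Finset.sum_congr rfl fun q _ => pd_csmul hD (c q) (hF q) hx i

theorem comb_smooth {ι : Type*} [Fintype ι] {D : Set (E n)} {F : ι → E n → Fib N}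
    (hF : ∀ q, ContDiffOn ℝ ∞ (F q) D) (c : ι → ℂ) :
    ContDiffOn ℝ ∞ (fun y => ∑ q, c q • F q y) D :=
  ContDiffOn.sum fun q _ => (hF q).const_smul (c q)

theorem fW_comb {ι : Type*} [Fintype ι] (L : LD n N) {D : Set (E n)} (hD : RelOpen D)
    {F : ι → E n → Fib N} (hF : ∀ q, ContDiffOn ℝ ∞ (F q) D) (c : ι → ℂ) {x : E n} (hx : x ∈ D)
    (j : Fin n) : fW L j (fun y => ∑ q, c q • F q y) x = ∑ q, c q • fW L j (F q) x := by
  unfold fW
  simp only [pd_combC hD hF c hx, map_sum, map_smul, Finset.smul_sum]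
  rw [Finset.sum_comm]
  refine Finset.sum_congr rfl fun q _ => Finset.sum_congr rfl fun k _ => ?_
  exact smul_comm _ _ _

theorem Ko_comb {ι : Type*} [Fintype ι] {L : LD n N} {D : Set (E n)} (hD : RelOpen D)
    (hL : L.Ok D) {F : ι → E n → Fib N} (hF : ∀ q, ContDiffOn ℝ ∞ (F q) D) (c : ι → ℂ) {x : E n}
    (hx : x ∈ D) : Ko L (fun y => ∑ q, c q • F q y) x = ∑ q, c q • Ko L (F q) x := by
  unfold Ko
  simp only [smul_add, Finset.sum_add_distrib, Finset.smul_sum]
  congr 1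
  · rw [Finset.sum_comm]
    refine Finset.sum_congr rfl fun j _ => ?_
    rw [hD.pd_congr (fun y hy => fW_comb L hD hF c hy j) hx j]
    exact pd_combC hD (fun q => fW_smooth hD hL (hF q) j) c hx j
  · rw [Finset.sum_comm]
    refine Finset.sum_congr rfl fun j _ => ?_
    rw [pd_combC hD hF c hx j]
    simp only [map_sum, map_smul]

theorem TstF.sum {z : E n} {r : ℝ} {ι : Type*} (s : Finset ι) {f : ι → E n → Fib N}
    (hf : ∀ q, TstF z r (f q)) (c : ι → ℂ) : TstF z r (fun y => ∑ q ∈ s, c q • f q y) := by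
  classical
  induction s using Finset.induction_on with
  | empty =>
    refine ⟨by simpa using contDiff_const, r - 1, by linarith, fun x _ => by simp⟩
  | insert a s ha ih =>
    have h1 := (hf a).lin ih (c a) 1
    simpa only [Finset.sum_insert ha, one_smul] using h1

theorem lin_sumC {z : E n} {r : ℝ} {V : (E n → Fib N) → E n → Fib N}
    (hV : ∀ f g, TstF z r f → TstF z r g → ∀ a b : ℂ, ∀ x,
      V (fun y => a • f y + b • g y) x = a • V f x + b • V g x)
    {ι : Type*} (s : Finset ι) {f : ι → E n → Fib N} (hf : ∀ q, TstF z r (f q)) (c : ι → ℂ)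
    (x : E n) : V (fun y => ∑ q ∈ s, c q • f q y) x = ∑ q ∈ s, c q • V (f q) x := by
  classical
  induction s using Finset.induction_on with
  | empty =>
    have h0 : TstF z r (fun _ : E n => (0 : Fib N)) :=
      ⟨contDiff_const, r - 1, by linarith, fun x _ => rfl⟩
    have h1 := hV _ _ h0 h0 0 0 x
    simpa using h1
  | insert a s ha ih =>
    have h1 := hV _ _ (hf a) (TstF.sum s hf c) (c a) 1 x
    simp only [one_smul] at h1
    simp only [Finset.sum_insert ha]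
    rw [h1, ih]

/-! ### Integrals -/

theorem int_emG {F' : Type*} [NormedAddCommGroup F'] [NormedSpace ℝ F'] {z : E n} (hz : z 0 = 0)
    {r : ℝ} (hr : 0 < r) (g : E n → F') :
    ∫ x in Eb (0 : V n) r \ Gm n, g (em z x) = ∫ y in HB z r, g y := by
  rw [← (em_mp z).setIntegral_preimage_emb (em_emb z) g (HB z r)]
  congr 2
  ext x
  exact (em_HB hz hr x).symm

theorem memLp_emG {F' : Type*} [NormedAddCommGroup F'] {z : E n} (hz : z 0 = 0) {r r₀ : ℝ}
    (hr : 0 < r) (hrr : r < r₀) {g : E n → F'} (hg : ContinuousOn g (HB z r₀)) :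
    MemLp (fun x => g (em z x)) 2 (volume.restrict (Eb (0 : V n) r \ Gm n)) := by
  haveI : IsFiniteMeasure (volume.restrict (Eb (0 : V n) r \ Gm n)) :=
    ⟨by rw [Measure.restrict_apply_univ]; exact (measure_mono diff_subset).trans_lt (Eb_fin hr)⟩
  obtain ⟨B, hB⟩ := KB_compact.exists_bound_of_continuousOn (hg.mono (KB_sub' hrr))
  have hmap : MapsTo (em z) (Eb (0 : V n) r \ Gm n) (HB z r₀) := fun x hx =>
    CRel1_HB_mono z hrr.le ((em_HB hz hr x).2 hx)
  refine MemLp.of_bound ?_ B ?_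
  · exact (hg.comp (continuous_em z).continuousOn hmap).aestronglyMeasurable
      ((Eb_meas r).diff Gm_meas)
  · filter_upwards [ae_restrict_mem ((Eb_meas r).diff Gm_meas)] with x hx
    exact hB _ (HB_sub_KB ((em_HB hz hr x).2 hx))

theorem memLp_xzG {F' : Type*} [NormedAddCommGroup F'] {z : E n} (hz : z 0 = 0) {r r₀ : ℝ}
    (hr : 0 < r) (hrr : r < r₀) {g : E n → F'}
    (hg : ContinuousOn g (HB z r₀)) (h0 : ∀ y ∈ HB z r, y 0 = 0 → g y = 0) :
    MemLp (xz z g) 2 (volume.restrict (Eb (0 : V n) r)) := by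
  haveI : IsFiniteMeasure (volume.restrict (Eb (0 : V n) r)) :=
    ⟨by rw [Measure.restrict_apply_univ]; exact Eb_fin hr⟩
  obtain ⟨B, hB⟩ := KB_compact.exists_bound_of_continuousOn (hg.mono (KB_sub' hrr))
  refine MemLp.of_bound ?_ |B| ?_
  · exact (xz_cont hz hr (hg.mono (CRel1_HB_mono z hrr.le)) h0).aestronglyMeasurable (Eb_meas r)
  · filter_upwards [ae_restrict_mem (Eb_meas r)] with x hx
    by_cases hx0 : 0 ≤ x 0
    · rw [xz_of hx0]
      exact (hB _ (HB_sub_KB ((em_HB hz hr x).2 ⟨hx, show ¬ x 0 < 0 from not_lt.2 hx0⟩))).trans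
        (le_abs_self B)
    · rw [xz_neg (not_le.1 hx0), norm_zero]
      exact abs_nonneg B

theorem plane_null : volume {x : V n | x 0 = 0} = 0 := by
  have h := (em_mp (0 : E n)).measure_preimage_emb (em_emb (0 : E n)) {y : E n | y 0 = 0}
  rw [flat_null] at h
  rw [← h]
  congr 1
  ext x
  show x 0 = 0 ↔ em (0 : E n) x 0 = 0
  rw [em_zero (show (0 : E n) 0 = 0 from rfl)]

theorem ae_pos (r : ℝ) : ∀ᵐ x : V n ∂(volume.restrict (Eb (0 : V n) r \ Gm n)), 0 < x 0 := by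
  have h1 : ∀ᵐ x : V n ∂(volume.restrict (Eb (0 : V n) r \ Gm n)), x 0 ≠ 0 :=
    ae_restrict_of_ae (by
      rw [ae_iff]
      simpa using plane_null (n := n))
  filter_upwards [h1, ae_restrict_mem ((Eb_meas r).diff Gm_meas)] with x hx hx'
  exact lt_of_le_of_ne (not_lt.1 hx'.2) (Ne.symm hx)

theorem dot_bl (a b : Fib N) : (WithLp.ofLp a) ⬝ᵥ (WithLp.ofLp b) = bl a b := rfl

/-! ### The transfer property -/

section main

variable {W₁ W₂ : LD n N} {z : E n} {r r₀ C : ℝ} {V₁ V₂ : (E n → Fib N) → E n → Fib N}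
  {s₁ s₂ : MF n} {P₁ P₂ : MC n N} {G₁ G₂ : Fin n → MC n N}

/-- **The transfer property at a boundary point.** -/
theorem PSolN.stpN (h : PSolN W₁ W₂ z r r₀ C V₁ V₂) (hC : 0 ≤ C) (hz : z 0 = 0) (hr : 0 < r)
    (hrr : r < r₀) (F₁ : Fld W₁ z (Eb (0 : V n) r) s₁ P₁ G₁)
    (F₂ : Fld W₂ z (Eb (0 : V n) r) s₂ P₂ G₂) :
    StpN (Eb (0 : V n) r) (Gm n) (TP s₁ P₁) (kp s₁ G₁) (TP s₂ P₂) (kp s₂ G₂) := by
  have hsub : HB z r ⊆ HB z r₀ := CRel1_HB_mono z hrr.le
  have hrel := HB_rel z r₀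
  have hmem : ∀ {x}, x ∈ Eb (0 : V n) r \ Gm n → em z x ∈ HB z r := fun hx => (em_HB hz hr _).2 hx
  have hnn : ∀ {x}, x ∈ Eb (0 : V n) r \ Gm n → 0 ≤ x 0 := fun hx => not_lt.1 hx.2
  have hms : MeasurableSet (Eb (0 : V n) r \ Gm n) := (Eb_meas r).diff Gm_meas
  obtain ⟨m, M, hm, hM, hh⟩ := APoin_h_bd h.ok₁ (KB_compact (z := z) (r := r)) (KB_sub' hrr)
  refine ⟨2 * (C * (m⁻¹ ^ 2)) + 2 * C, by positivity, fun d f hf hfc hft ε hε => ?_⟩
  set f' : Fin d → E n → Fib N := fun q => cE z (f q) with hf'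
  have hT : ∀ q, TstF z r (f' q) := fun q => tstF_cE hr (hf q) (hfc q) (hft q)
  have hf's : ∀ q, ContDiffOn ℝ ∞ (f' q) (HB z r₀) := fun q => (hT q).sm.contDiffOn
  have hs₁ : ∀ q, ContDiffOn ℝ ∞ (V₁ (f' q)) (HB z r₀) := fun q => (h.sol₁ _ (hT q)).1
  have hs₂ : ∀ q, ContDiffOn ℝ ∞ (V₂ (f' q)) (HB z r₀) := fun q => (h.sol₂ _ (hT q)).1
  set p : Fin d → E n → Fib N := fun q y => V₂ (f' q) y - V₁ (f' q) y with hp
  have hps : ∀ q, ContDiffOn ℝ ∞ (p q) (HB z r₀) := fun q => (hs₂ q).sub (hs₁ q)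
  have hp0 : ∀ q, ∀ y ∈ HB z r, y 0 = 0 → p q y = 0 := fun q y hy hy0 => by
    simp only [hp, h.val₁ _ (hT q) y (hsub hy) hy0, h.val₂ _ (hT q) y (hsub hy) hy0, sub_self]
  have hp1 : ∀ q k, ∀ y ∈ HB z r, y 0 = 0 → pd k (p q) y = 0 := fun q k y hy hy0 =>
    h.dzero hrr (hT q) k y hy hy0
  have hC1 := fun q => wV_C1 hz hr ((hps q).mono hsub) (hp0 q) (hp1 q)
  refine ⟨fun q => wV z (p q), fun q i x => WithLp.ofLp (pd i (V₁ (f' q)) (em z x)),
    fun q => (hC1 q).1, fun q x hx => wV_neg hx.1, fun q a => ?_, fun q i a => ?_,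
    fun q i a => ?_, fun q φ hφ hφc hφt => ?_, fun c => ?_⟩
  · exact memLp_xzG hz hr hrr (g := fun y => p q y a) (sm_comp (hps q) a).continuousOn
      fun y hy hy0 => by rw [hp0 q y hy hy0]; rfl
  · have h1 : MemLp (xz z fun y => pd i (p q) y a) 2 (volume.restrict (Eb (0 : V n) r)) :=
      memLp_xzG hz hr hrr (sm_comp (hrel.pd_smooth (hps q) i) a).continuousOn
        fun y hy hy0 => by rw [hp1 q i y hy hy0]; rfl
    refine (memLp_congr_ae ?_).1 h1
    filter_upwards [ae_restrict_mem (Eb_meas r)] with x hx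
    rw [(hC1 q).2 i x hx]
    rfl
  · exact memLp_emG hz hr hrr (g := fun y => pd i (V₁ (f' q)) y a)
      (sm_comp (hrel.pd_smooth (hs₁ q) i) a).continuousOn
  · -- the weak equation
    have hφT : TstF z r (cE z φ) := tstF_cE hr hφ hφc hφt
    have hwk := h.weak hrr (hT q) hφT
    have hsw : ∀ (a : Fin n → Fib N) (b : Fin n → Fin n → Fib N),
        ∑ i, ∑ j, (WithLp.ofLp (a j)) ⬝ᵥ (WithLp.ofLp (b j i)) = ∑ j, bl (a j) (∑ i, b j i) := by
      intro a b
      rw [Finset.sum_comm]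
      refine Finset.sum_congr rfl fun j _ => ?_
      rw [bl_sum]
      rfl
    have hφ0 : ∀ x, φ x = WithLp.ofLp (cE z φ (em z x)) := fun x => by
      unfold cE
      rw [me_em]
    have hL : (∫ x in Eb (0 : V n) r,
        ((∑ i, ∑ j, pdv j φ x ⬝ᵥ (TP s₂ P₂ j i x *ᵥ pdv i (wV z (p q)) x)) -
            ∑ i, φ x ⬝ᵥ (kp s₂ G₂ i x *ᵥ pdv i (wV z (p q)) x))) =
        ∫ x in HB z r, ((∑ j, bl (pd j (cE z φ) x) (fW W₂ j (p q) x)) -
          ∑ j, bl (cE z φ x) (kW W₂ j x (pd j (p q) x))) := by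
      rw [← int_emG hz hr]
      refine (setIntegral_eq_of_subset_of_forall_diff_eq_zero (Eb_meas r) diff_subset
        fun x hx => ?_).trans (setIntegral_congr_fun hms fun x hx => ?_)
      · have hxG : x ∈ Gm n := by
          by_contra hG
          exact hx.2 ⟨hx.1, hG⟩
        have e1 : ∀ i, pdv i (wV z (p q)) x = 0 := fun i => by
          rw [(hC1 q).2 i x hx.1, wV_neg hxG]
        simp only [e1, Matrix.mulVec_zero, dotProduct_zero, Finset.sum_const_zero, sub_zero]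
      · have hx0 := hnn hx
        have e1 : ∀ i, pdv i (wV z (p q)) x = WithLp.ofLp (pd i (p q) (em z x)) := fun i => by
          rw [(hC1 q).2 i x hx.1, wV_of hx0]
        show (∑ i, ∑ j, pdv j φ x ⬝ᵥ (TP s₂ P₂ j i x *ᵥ pdv i (wV z (p q)) x)) -
            ∑ i, φ x ⬝ᵥ (kp s₂ G₂ i x *ᵥ pdv i (wV z (p q)) x) = _
        simp only [e1, F₂.T hx.1 hx0, F₂.Kv hx.1 hx0, pdv_cE hφ hz hx0]
        rw [hsw (fun j => pd j (cE z φ) (em z x))
          (fun j i => gg W₂.g j i (em z x) • W₂.h (em z x) (pd i (p q) (em z x))), hφ0 x]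
        rfl
    have hR : (∫ x in Eb (0 : V n) r \ Gm n, ((∑ i, ∑ j, pdv j φ x ⬝ᵥ
          ((TP s₁ P₁ j i x - TP s₂ P₂ j i x) *ᵥ
            (WithLp.ofLp (pd i (V₁ (f' q)) (em z x)) : Fin N → ℂ))) -
            ∑ i, φ x ⬝ᵥ ((kp s₁ G₁ i x - kp s₂ G₂ i x) *ᵥ
              (WithLp.ofLp (pd i (V₁ (f' q)) (em z x)) : Fin N → ℂ)))) =
        ∫ x in HB z r, ((∑ j, bl (pd j (cE z φ) x)
            (fW W₁ j (V₁ (f' q)) x - fW W₂ j (V₁ (f' q)) x)) -
          ∑ j, bl (cE z φ x) (kW W₁ j x (pd j (V₁ (f' q)) x) -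
            kW W₂ j x (pd j (V₁ (f' q)) x))) := by
      rw [← int_emG hz hr]
      refine setIntegral_congr_fun hms fun x hx => ?_
      have hx0 := hnn hx
      have e1 : ∀ j i, (TP s₁ P₁ j i x - TP s₂ P₂ j i x) *ᵥ
            (WithLp.ofLp (pd i (V₁ (f' q)) (em z x)) : Fin N → ℂ) =
          WithLp.ofLp (gg W₁.g j i (em z x) • W₁.h (em z x) (pd i (V₁ (f' q)) (em z x)) -
            gg W₂.g j i (em z x) • W₂.h (em z x) (pd i (V₁ (f' q)) (em z x))) := fun j i => by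
        rw [Matrix.sub_mulVec, F₁.T hx.1 hx0, F₂.T hx.1 hx0, WithLp.ofLp_sub]
      have e2 : ∀ i, (kp s₁ G₁ i x - kp s₂ G₂ i x) *ᵥ
            (WithLp.ofLp (pd i (V₁ (f' q)) (em z x)) : Fin N → ℂ) =
          WithLp.ofLp (kW W₁ i (em z x) (pd i (V₁ (f' q)) (em z x)) -
            kW W₂ i (em z x) (pd i (V₁ (f' q)) (em z x))) := fun i => by
        rw [Matrix.sub_mulVec, F₁.Kv hx.1 hx0, F₂.Kv hx.1 hx0, WithLp.ofLp_sub]
      show (∑ i, ∑ j, pdv j φ x ⬝ᵥ ((TP s₁ P₁ j i x - TP s₂ P₂ j i x) *ᵥ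
            (WithLp.ofLp (pd i (V₁ (f' q)) (em z x)) : Fin N → ℂ))) -
            ∑ i, φ x ⬝ᵥ ((kp s₁ G₁ i x - kp s₂ G₂ i x) *ᵥ
              (WithLp.ofLp (pd i (V₁ (f' q)) (em z x)) : Fin N → ℂ)) = _
      simp only [e1, e2, pdv_cE hφ hz hx0]
      rw [hsw (fun j => pd j (cE z φ) (em z x)) (fun j i =>
        gg W₁.g j i (em z x) • W₁.h (em z x) (pd i (V₁ (f' q)) (em z x)) -
            gg W₂.g j i (em z x) • W₂.h (em z x) (pd i (V₁ (f' q)) (em z x))), hφ0 x]
      simp only [Finset.sum_sub_distrib]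
      rfl
    rw [hL, hR]
    exact hwk
  · -- the estimates
    set cc : Fin d → ℂ := fun q => (c q : ℂ) with hcc
    set F : E n → Fib N := fun y => ∑ q, cc q • f' q y with hF
    have hFT : TstF z r F := TstF.sum Finset.univ hT cc
    have hFs : ContDiffOn ℝ ∞ F (HB z r₀) := hFT.sm.contDiffOn
    have h1s : ContDiffOn ℝ ∞ (V₁ F) (HB z r₀) := (h.sol₁ F hFT).1
    have h2s : ContDiffOn ℝ ∞ (V₂ F) (HB z r₀) := (h.sol₂ F hFT).1
    have hV₁ : V₁ F = fun y => ∑ q, cc q • V₁ (f' q) y :=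
      funext fun y => lin_sumC h.lin₁ Finset.univ hT cc y
    have hV₂ : V₂ F = fun y => ∑ q, cc q • V₂ (f' q) y :=
      funext fun y => lin_sumC h.lin₂ Finset.univ hT cc y
    have hpF : ∀ i, ∀ y ∈ HB z r₀, pd i F y = ∑ q, cc q • pd i (f' q) y := fun i y hy =>
      pd_combC hrel hf's cc hy i
    have hpV₁ : ∀ i, ∀ y ∈ HB z r₀, pd i (V₁ F) y = ∑ q, cc q • pd i (V₁ (f' q)) y :=
      fun i y hy => by rw [hV₁]; exact pd_combC hrel hs₁ cc hy i
    have hpV₂ : ∀ i, ∀ y ∈ HB z r₀, pd i (V₂ F) y = ∑ q, cc q • pd i (V₂ (f' q)) y :=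
      fun i y hy => by rw [hV₂]; exact pd_combC hrel hs₂ cc hy i
    have ofs : ∀ (v : Fin d → Fib N), ∑ q, (c q : ℂ) • (WithLp.ofLp (v q) : Fin N → ℂ) =
        WithLp.ofLp (∑ q, cc q • v q) := by
      intro v
      rw [WithLp.ofLp_sum]
      rfl
    -- the right hand side
    have hMo : ∫ x in Eb (0 : V n) r \ Gm n,
        nv (∑ q, (c q : ℂ) • MoV (TP s₁ P₁) (kp s₁ G₁) (f q) x) =
        ∫ y in HB z r, ‖W₁.h y (Lop W₁ F y)‖ ^ 2 := by
      rw [← int_emG hz hr]
      refine integral_congr_ae ?_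
      filter_upwards [ae_pos r, ae_restrict_mem hms] with x hx0 hx
      have hy := hsub (hmem hx)
      have e1 : ∀ q, MoV (TP s₁ P₁) (kp s₁ G₁) (f q) x = WithLp.ofLp (Ko W₁ (f' q) (em z x)) :=
        fun q => F₁.M hz hr hrr h.ok₁ h.cs₁ (hf q) hx.1 hx0
      simp only [e1]
      rw [ofs, nv_ofLp, ← Ko_comb hrel h.ok₁ hf's cc hy,
        ← h_lop hrel h.ok₁ hy (fun v => (h.cs₁ v).2 _ hy) (comb_smooth hf's cc)]
    have hLc : ContinuousOn (Lop W₁ F) (HB z r₀) := by
      unfold Lop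
      refine continuousOn_finsetSum _ fun j _ => ?_
      have h1 : ContDiffOn ℝ ∞ (flux W₁ j F) (HB z r₀) := by
        unfold flux
        exact ContDiffOn.sum fun k _ =>
          (hrel.gg_smooth h.ok₁.g_smooth h.ok₁.g_pos j k).smul (Jacobi_nab_smooth hrel h.ok₁ hFs k)
      exact (hrel.pd_smooth h1 j).continuousOn.add
        (smooth_eval (h.ok₁.B_smooth j) h1).continuousOn
    have hhL : ContinuousOn (fun y => W₁.h y (Lop W₁ F y)) (HB z r₀) := by
      have hb : IsBoundedBilinearMap ℝ (fun p : EndF N × Fib N => p.1 p.2) :=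
        { add_left := fun x y z => rfl
          smul_left := fun c x y => rfl
          add_right := fun x y z => map_add x y z
          smul_right := fun c x y => ContinuousLinearMap.map_smul_of_tower _ _ _
          bound := ⟨1, one_pos, fun x y => by simpa using x.le_opNorm y⟩ }
      exact hb.continuous.comp_continuousOn (h.ok₁.h_smooth.continuousOn.prodMk hLc)
    have iL : IntegrableOn (fun x => ‖Lop W₁ F x‖ ^ 2) (HB z r) := intHB hrr (hLc.norm.pow 2)
    have ihL : IntegrableOn (fun x => ‖W₁.h x (Lop W₁ F x)‖ ^ 2) (HB z r) :=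
      intHB hrr (hhL.norm.pow 2)
    have hLe : ∫ x in HB z r, ‖Lop W₁ F x‖ ^ 2 ≤
        m⁻¹ ^ 2 * ∫ y in HB z r, ‖W₁.h y (Lop W₁ F y)‖ ^ 2 := by
      rw [← integral_const_mul]
      refine setIntegral_mono_on iL (ihL.const_mul _) (HB_meas z r) fun x hx => ?_
      have h1 := (hh x (HB_sub_KB hx)).2 (Lop W₁ F x)
      have h2 : (inner ℂ (Lop W₁ F x) (W₁.h x (Lop W₁ F x)) : ℂ).re ≤
          ‖Lop W₁ F x‖ * ‖W₁.h x (Lop W₁ F x)‖ :=
        (Complex.re_le_norm _).trans (norm_inner_le_norm _ _)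
      have h3 : m * ‖Lop W₁ F x‖ ≤ ‖W₁.h x (Lop W₁ F x)‖ := by
        rcases eq_or_lt_of_le (norm_nonneg (Lop W₁ F x)) with h0 | h0
        · rw [← h0, mul_zero]; exact norm_nonneg _
        · have h4 : ‖Lop W₁ F x‖ * (m * ‖Lop W₁ F x‖) ≤
              ‖Lop W₁ F x‖ * ‖W₁.h x (Lop W₁ F x)‖ := by nlinarith
          exact le_of_mul_le_mul_left h4 h0
      have h5 : ‖Lop W₁ F x‖ ≤ m⁻¹ * ‖W₁.h x (Lop W₁ F x)‖ := by
        rw [← div_eq_inv_mul, le_div_iff₀ hm, mul_comm]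
        exact h3
      calc ‖Lop W₁ F x‖ ^ 2 ≤ (m⁻¹ * ‖W₁.h x (Lop W₁ F x)‖) ^ 2 :=
            pow_le_pow_left₀ (norm_nonneg _) h5 2
        _ = _ := by ring
    have E1 : ∫ x in HB z r, hn (fun y => F y - V₁ F y) x ≤
        C * m⁻¹ ^ 2 * ∫ y in HB z r, ‖W₁.h y (Lop W₁ F y)‖ ^ 2 := by
      refine (h.e₁ F hFT).trans ((mul_le_mul_of_nonneg_left hLe hC).trans (le_of_eq (by ring)))
    have E2 := h.e₂ F hFT
    have i1 : IntegrableOn (hn fun y => F y - V₁ F y) (HB z r) :=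
      intHB hrr (hn_cont hrel (hFs.sub h1s))
    have i2 : IntegrableOn (hn fun y => F y - V₂ F y) (HB z r) :=
      intHB hrr (hn_cont hrel (hFs.sub h2s))
    have hεc : 0 ≤ ε * ∑ q, c q ^ 2 :=
      mul_nonneg hε.le (Finset.sum_nonneg fun _ _ => sq_nonneg _)
    have hR0 : 0 ≤ ∫ y in HB z r, ‖W₁.h y (Lop W₁ F y)‖ ^ 2 :=
      integral_nonneg fun _ => sq_nonneg _
    have hF0 : 0 ≤ ∫ y in HB z r, hn F y := integral_nonneg fun _ => hn_nonneg _ _
    have hCm : 0 ≤ C * m⁻¹ ^ 2 := by positivity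
    rw [hMo]
    constructor
    · -- the first estimate
      have h1 : ∫ x in Eb (0 : V n) r \ Gm n, ∑ i, nv (∑ q, (c q : ℂ) •
          ((WithLp.ofLp (pd i (V₁ (f' q)) (em z x)) : Fin N → ℂ) - pdv i (f q) x)) =
          ∫ y in HB z r, ∑ i, ‖pd i (fun y => F y - V₁ F y) y‖ ^ 2 := by
        rw [← int_emG hz hr (fun y => ∑ i, ‖pd i (fun y => F y - V₁ F y) y‖ ^ 2)]
        refine setIntegral_congr_fun hms fun x hx => ?_
        have hy := hsub (hmem hx)
        refine Finset.sum_congr rfl fun i _ => ?_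
        have e1 : pd i (fun y => F y - V₁ F y) (em z x) = pd i F (em z x) - pd i (V₁ F) (em z x) :=
          hrel.pd_sub hFs h1s hy i
        have e2 : ∀ q, (WithLp.ofLp (pd i (V₁ (f' q)) (em z x)) : Fin N → ℂ) - pdv i (f q) x =
            WithLp.ofLp (pd i (V₁ (f' q)) (em z x) - pd i (f' q) (em z x)) := fun q => by
          rw [WithLp.ofLp_sub, pdv_cE (hf q) hz (hnn hx) i]
        simp only [e2]
        rw [ofs, nv_ofLp, e1, hpF i _ hy, hpV₁ i _ hy, ← Finset.sum_sub_distrib, ← norm_neg,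
          ← Finset.sum_neg_distrib]
        congr 2
        refine Finset.sum_congr rfl fun q _ => ?_
        rw [smul_sub]
        abel
      rw [h1]
      have h2 : ∫ y in HB z r, ∑ i, ‖pd i (fun y => F y - V₁ F y) y‖ ^ 2 ≤
          ∫ y in HB z r, hn (fun y => F y - V₁ F y) y := by
        refine setIntegral_mono_on (intHB hrr (continuousOn_finsetSum _ fun i _ =>
          ((hrel.pd_smooth (hFs.sub h1s) i).continuousOn.norm.pow 2))) i1 (HB_meas z r) fun y _ => ?_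
        exact le_add_of_nonneg_left (sq_nonneg _)
      nlinarith [mul_nonneg hCm hR0, mul_nonneg hC hR0]
    · -- the second estimate
      have hw : ∀ x ∈ Eb (0 : V n) r \ Gm n,
          (nv (∑ q, (c q : ℂ) • wV z (p q) x) + ∑ i, nv (∑ q, (c q : ℂ) • pdv i (wV z (p q)) x)) =
            hn (fun y => V₂ F y - V₁ F y) (em z x) := by
        intro x hx
        have hy := hsub (hmem hx)
        have e1 : ∀ i, pd i (fun y => V₂ F y - V₁ F y) (em z x) =
            pd i (V₂ F) (em z x) - pd i (V₁ F) (em z x) := fun i => hrel.pd_sub h2s h1s hy i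
        have e2 : ∀ q i, pd i (p q) (em z x) =
            pd i (V₂ (f' q)) (em z x) - pd i (V₁ (f' q)) (em z x) := fun q i =>
          hrel.pd_sub (hs₂ q) (hs₁ q) hy i
        have e3 : ∀ q i, pdv i (wV z (p q)) x = WithLp.ofLp (pd i (p q) (em z x)) := fun q i => by
          rw [(hC1 q).2 i x hx.1, wV_of (hnn hx)]
        have e4 : ∀ q, wV z (p q) x = WithLp.ofLp (p q (em z x)) := fun q => wV_of (hnn hx)
        simp only [e3, e4]
        unfold hn
        congr 1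
        · rw [ofs, nv_ofLp, hV₁, hV₂]
          show ‖_‖ ^ 2 = ‖(∑ q, cc q • V₂ (f' q) (em z x)) -
            ∑ q, cc q • V₁ (f' q) (em z x)‖ ^ 2
          rw [← Finset.sum_sub_distrib]
          congr 2
          exact Finset.sum_congr rfl fun q _ => by simp only [hp, smul_sub]
        · refine Finset.sum_congr rfl fun i _ => ?_
          rw [ofs, nv_ofLp, e1, hpV₁ i _ hy, hpV₂ i _ hy, ← Finset.sum_sub_distrib]
          congr 2
          exact Finset.sum_congr rfl fun q _ => by rw [e2, smul_sub]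
      have h1 : ∫ x in Eb (0 : V n) r,
          (nv (∑ q, (c q : ℂ) • wV z (p q) x) + ∑ i, nv (∑ q, (c q : ℂ) • pdv i (wV z (p q)) x)) =
          ∫ y in HB z r, hn (fun y => V₂ F y - V₁ F y) y := by
        rw [← int_emG hz hr (hn fun y => V₂ F y - V₁ F y), ← setIntegral_congr_fun hms hw]
        refine setIntegral_eq_of_subset_of_forall_diff_eq_zero (Eb_meas r) diff_subset
          fun x hx => ?_
        have hxG : x ∈ Gm n := by
          by_contra hG
          exact hx.2 ⟨hx.1, hG⟩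
        have e1 : ∀ q i, pdv i (wV z (p q)) x = 0 := fun q i => by
          rw [(hC1 q).2 i x hx.1, wV_neg hxG]
        have e2 : ∀ q, wV z (p q) x = 0 := fun q => wV_neg hxG
        simp only [e1, e2, smul_zero, Finset.sum_const_zero]
        simp [nv]
      have h2 : ∫ x in Eb (0 : V n) r \ Gm n,
          (nv (∑ q, (c q : ℂ) • f q x) + ∑ i, nv (∑ q, (c q : ℂ) • pdv i (f q) x)) =
          ∫ y in HB z r, hn F y := by
        rw [← int_emG hz hr (hn F)]
        refine setIntegral_congr_fun hms fun x hx => ?_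
        have hy := hsub (hmem hx)
        have e1 : ∀ q i, pdv i (f q) x = WithLp.ofLp (pd i (f' q) (em z x)) := fun q i =>
          pdv_cE (hf q) hz (hnn hx) i
        have e2 : ∀ q, f q x = WithLp.ofLp (f' q (em z x)) := fun q => by
          simp only [hf', cE, me_em]
        simp only [e1, e2]
        unfold hn
        congr 1
        · rw [ofs, nv_ofLp]
        · refine Finset.sum_congr rfl fun i _ => ?_
          rw [ofs, nv_ofLp, hpF i _ hy]
      rw [h1, h2]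
      have h3 : ∫ y in HB z r, hn (fun y => V₂ F y - V₁ F y) y ≤
          ∫ y in HB z r, (2 * hn (fun y => F y - V₁ F y) y + 2 * hn (fun y => F y - V₂ F y) y) := by
        refine setIntegral_mono_on (intHB hrr (hn_cont hrel (h2s.sub h1s)))
          ((i1.const_mul 2).add (i2.const_mul 2)) (HB_meas z r) fun y hy => ?_
        have e1 : (fun y => V₂ F y - V₁ F y) =
            fun y => (F y - V₁ F y) - (F y - V₂ F y) := by
          funext y
          abel
        rw [e1]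
        exact hn_sub_le hrel (hFs.sub h1s) (hFs.sub h2s) (hsub hy)
      have h4 : ∫ y in HB z r, (2 * hn (fun y => F y - V₁ F y) y +
          2 * hn (fun y => F y - V₂ F y) y) = 2 * (∫ y in HB z r, hn (fun y => F y - V₁ F y) y) +
            2 * ∫ y in HB z r, hn (fun y => F y - V₂ F y) y := by
        rw [integral_add (i1.const_mul 2) (i2.const_mul 2), integral_const_mul, integral_const_mul]
      rw [h4] at h3
      nlinarith [mul_nonneg hCm hR0, mul_nonneg hC hR0, mul_nonneg hCm hF0, mul_nonneg hC hF0]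

end main

end Vale.Agent.P088.R2.H509.S4

end
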