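import Vale.Agent.P088.R2.H509.S4.N5

/-!
# P088, stage 4: the transfer property of two pairs at a boundary point
-/

set_option linter.all false

open Bundle Manifold MeasureTheory Set Filter Topology Metric
open scoped ContDiff Matrix

noncomputable section

namespace Vale.Agent.P088.R2.H509.S4

open Vale.Agent.P088 Vale.Agent.P088.EYM Vale.Agent.P088.TM
open Vale.Agent.P088.LR (V MF)
open Vale.Agent.P088.LR.U (MC)
open Vale.Agent.P088.PJ (TP kp)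
open Vale.Agent.P088.HY.T3 (Eb)
open Vale.Agent.P088.S4 (pdv MoV nv StpN)
open Vale.Agent.P088.R2.H509.S3

universe u

variable {n N : ℕ} [NeZero n] {M₁ M₂ : Type u}
  [TopologicalSpace M₁] [ChartedSpace (EuclideanHalfSpace n) M₁] [IsManifold (𝓡∂ n) ∞ M₁]
  [TopologicalSpace M₂] [ChartedSpace (EuclideanHalfSpace n) M₂] [IsManifold (𝓡∂ n) ∞ M₂]
  [MeasurableSpace M₁] [MeasurableSpace M₂]
  {P : One n N M₁} {Q : One n N M₂} {G : Gl M₁ M₂} {e₁ : E n → M₁} {e₂ : E n → M₂}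
  {L₁ L₂ : LD n N} {D₀ : Set (E n)}
  [T2Space M₁] [CompactSpace M₁] [ConnectedSpace M₁] [BorelSpace M₁]
  [T2Space M₂] [CompactSpace M₂] [ConnectedSpace M₂] [BorelSpace M₂]

/-- **ST4b**: the transfer property at a boundary point, all `N`, any connections. -/
theorem st4b (hP : PC P Q G e₁ e₂ L₁ L₂ D₀) (hG : G.Ok n N) (hS : SameD P Q G)
    {z : E n} {r₀ r : ℝ} {j0 : Fin N} {W₁ W₂ : Model n N} {D₁ D₂ : Set (E n)}
    {X₁ Y₁ X₂ Y₂ : E n → E n} {S₁ S₂ : E n → EndF N}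
    {s : Fin N → (M₁ → Fib N) × (M₂ → Fib N)} {t : Fin n → (M₁ → Fib N) × (M₂ → Fib N)}
    (hs : ∀ j, s j ∈ PP P Q G) (ht : ∀ a, t a ∈ PP P Q G)
    (h₁ : BdM e₁ L₁ D₀ z r₀ j0 W₁ D₁ X₁ Y₁ S₁ (fun j => (s j).1) (fun a => (t a).1))
    (h₂ : BdM e₂ L₂ D₀ z r₀ j0 W₂ D₂ X₂ Y₂ S₂ (fun j => (s j).2) (fun a => (t a).2))
    (hr : 0 < r) (hrr : r < r₀) {s₁ s₂ : MF n} {P₁ P₂ : MC n N} {G₁ G₂ : Fin n → MC n N}
    (F₁ : Fld W₁.toLD z (Eb (0 : V n) r) s₁ P₁ G₁)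
    (F₂ : Fld W₂.toLD z (Eb (0 : V n) r) s₂ P₂ G₂) :
    StpN (Eb (0 : V n) r) (Gm n) (TP s₁ P₁) (kp s₁ G₁) (TP s₂ P₂) (kp s₂ G₂) := by
  obtain ⟨C, V₁, V₂, hC, h, -⟩ := pairSolN hP hG hS hs ht h₁ h₂ hr hrr
  exact h.stpN hC h₁.z0 hr hrr F₁ F₂

end Vale.Agent.P088.R2.H509.S4

end
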