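import Vale.Agent.P088.R2.H509.S4.N4

/-!
# P088, stage 4: identities of local data with constant solutions
-/

set_option linter.all false

open Bundle Manifold MeasureTheory Set Filter Topology Metric
open scoped ContDiff

noncomputable section

namespace Vale.Agent.P088.R2.H509.S4

open Vale.Agent.P088 Vale.Agent.P088.EYM
open Vale.Agent.P088.R2.H509.S3

variable {n N : ℕ} [NeZero n] {L : LD n N} {D : Set (E n)}

/-- `∑_k √(det g) g^{jk} h B_k` -/
def FF (L : LD n N) (j : Fin n) (y : E n) : EndF N := ∑ k, gg L.g j k y • (L.h y * L.B k y)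

/-- `h B_i - B_i^* h` -/
def gO (L : LD n N) (i : Fin n) (y : E n) : EndF N :=
  L.h y * L.B i y - ContinuousLinearMap.adjoint (L.B i y) * L.h y

theorem kW_eq (L : LD n N) (j : Fin n) (x : E n) : kW L j x = ∑ k, gg L.g j k x • gO L k x := rfl

theorem FF_smooth (hD : RelOpen D) (hL : L.Ok D) (j : Fin n) : ContDiffOn ℝ ∞ (FF L j) D := by
  unfold FF
  exact ContDiffOn.sum fun k _ => (hD.gg_smooth hL.g_smooth hL.g_pos j k).smul
    (smooth_mul hL.h_smooth (hL.B_smooth k))

theorem adj_rsm (c : ℝ) (T : EndF N) :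
    ContinuousLinearMap.adjoint (c • T) = c • ContinuousLinearMap.adjoint T := by
  have h : c • T = (c : ℂ) • T := by
    ext v i
    simp
  rw [h, map_smulₛₗ, Complex.conj_ofReal]
  ext v i
  simp

theorem adj_FF (hL : L.Ok D) {x : E n} (hx : x ∈ D) (j : Fin n) :
    ContinuousLinearMap.adjoint (FF L j x) =
      ∑ k, gg L.g j k x • (ContinuousLinearMap.adjoint (L.B k x) * L.h x) := by
  unfold FF
  rw [map_sum]
  refine Finset.sum_congr rfl fun k _ => ?_
  rw [adj_rsm, adj_mulE, hL.h_adj x hx]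

/-- The divergence of `FF`. -/
theorem div_FF (hD : RelOpen D) (hL : L.Ok D) {x : E n} (hx : x ∈ D)
    (hv : ∀ v : Fib N, Lop L (fun _ => v) x = 0) :
    ∑ j, pd j (FF L j) x = ∑ j, ContinuousLinearMap.adjoint (L.B j x) * FF L j x := by
  rw [← sub_eq_zero, ← Finset.sum_sub_distrib]
  refine ContinuousLinearMap.ext fun v => ?_
  have hfl : ∀ j, ContDiffOn ℝ ∞ (flux L j fun _ => v) D := fun j => by
    unfold flux
    exact ContDiffOn.sum fun k _ =>
      (hD.gg_smooth hL.g_smooth hL.g_pos j k).smul (Jacobi_nab_smooth hD hL contDiffOn_const k)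
  have e1 : ∀ j y, L.h y (flux L j (fun _ => v) y) = FF L j y v := by
    intro j y
    rw [flux_const, map_sum, FF, ContinuousLinearMap.sum_apply]
    exact Finset.sum_congr rfl fun k _ => ContinuousLinearMap.map_smul_of_tower _ _ _
  have e2 : ∀ j, L.h x (pd j (flux L j fun _ => v) x + L.B j x (flux L j (fun _ => v) x)) =
      pd j (FF L j) x v - ContinuousLinearMap.adjoint (L.B j x) (FF L j x v) := by
    intro j
    have k1 : pd j (fun y => L.h y (flux L j (fun _ => v) y)) x =
        L.h x (pd j (flux L j fun _ => v) x) + pd j L.h x (flux L j (fun _ => v) x) :=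
      hD.pd_eval hL.h_smooth (hfl j) (by simp) (by simp) hx j
    have k2 : pd j (fun y => L.h y (flux L j (fun _ => v) y)) x = pd j (FF L j) x v := by
      rw [funext (e1 j)]
      have k3 : pd j (fun y => FF L j y v) x = FF L j x (pd j (fun _ : E n => v) x) +
          pd j (FF L j) x v :=
        hD.pd_eval (FF_smooth hD hL j) (contDiffOn_const (c := v) (n := ∞)) (by simp) (by simp) hx j
      rw [k3, pd_const, map_zero, zero_add]
    have k3 : pd j L.h x (flux L j (fun _ => v) x) =
        ContinuousLinearMap.adjoint (L.B j x) (L.h x (flux L j (fun _ => v) x)) +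
          L.h x (L.B j x (flux L j (fun _ => v) x)) := by
      rw [hL.compat x hx j]; rfl
    rw [k2, k3, e1 j x] at k1
    rw [map_add, k1]
    abel
  have e3 := hv v
  have e4 : L.h x (Lop L (fun _ => v) x) = 0 := by rw [e3, map_zero]
  unfold Lop at e4
  rw [map_sum, Finset.sum_congr rfl fun j _ => e2 j] at e4
  rw [ContinuousLinearMap.sum_apply, zero_apply]
  exact e4

/-- `∑ g^{jk} B_j^* h B_k` is self-adjoint. -/
theorem QQ_adj (hL : L.Ok D) {x : E n} (hx : x ∈ D) :
    ContinuousLinearMap.adjoint (∑ j, ContinuousLinearMap.adjoint (L.B j x) * FF L j x) =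
      ∑ j, ContinuousLinearMap.adjoint (L.B j x) * FF L j x := by
  have h1 : ∀ j, ContinuousLinearMap.adjoint (ContinuousLinearMap.adjoint (L.B j x) * FF L j x) =
      ∑ k, gg L.g j k x • (ContinuousLinearMap.adjoint (L.B k x) * L.h x * L.B j x) := by
    intro j
    rw [adj_mulE, ContinuousLinearMap.adjoint_adjoint, adj_FF hL hx, Finset.sum_mul]
    exact Finset.sum_congr rfl fun k _ => smul_mul_assoc _ _ _
  have h2 : ∀ j, ContinuousLinearMap.adjoint (L.B j x) * FF L j x =
      ∑ k, gg L.g j k x • (ContinuousLinearMap.adjoint (L.B j x) * L.h x * L.B k x) := by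
    intro j
    rw [FF, Finset.mul_sum]
    refine Finset.sum_congr rfl fun k _ => ?_
    rw [mul_smul_comm, mul_assoc]
  rw [map_sum, Finset.sum_congr rfl fun j _ => h1 j, Finset.sum_comm]
  refine Finset.sum_congr rfl fun j _ => ?_
  rw [h2 j]
  exact Finset.sum_congr rfl fun k _ => by rw [gg_symm hL hx k j]

theorem kW_FF (hL : L.Ok D) {x : E n} (hx : x ∈ D) (j : Fin n) :
    kW L j x = FF L j x - ContinuousLinearMap.adjoint (FF L j x) := by
  rw [adj_FF hL hx, FF, ← Finset.sum_sub_distrib, kW]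
  exact Finset.sum_congr rfl fun k _ => smul_sub _ _ _

/-- **(dq)** -/
theorem dqE (hD : RelOpen D) (hL : L.Ok D) {x : E n} (hx : x ∈ D)
    (hv : ∀ v : Fib N, Lop L (fun _ => v) x = 0) : ∑ j, pd j (kW L j) x = 0 := by
  have h1 : ∀ j, pd j (kW L j) x =
      pd j (FF L j) x - ContinuousLinearMap.adjoint (pd j (FF L j) x) := by
    intro j
    rw [hD.pd_congr (fun y hy => kW_FF hL hy j) hx j,
      hD.pd_sub (FF_smooth hD hL j) (smooth_adj (FF_smooth hD hL j)) hx j,
      hD.pd_adj (FF_smooth hD hL j) hx j]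
  simp only [h1, Finset.sum_sub_distrib]
  rw [← map_sum, div_FF hD hL hx hv, QQ_adj hL hx, sub_self]

/-- **(pe)**, with the connection. -/
theorem peE (hD : RelOpen D) (hL : L.Ok D) {x : E n} (hx : x ∈ D)
    (hv : ∀ v : Fib N, Lop L (fun _ => v) x = 0) :
    ∑ i, pd i (fun y => ∑ j, gg L.g i j y • pd j L.h y) x =
      (2 : ℝ) • ∑ i, ∑ j, gg L.g i j x • (ContinuousLinearMap.adjoint (L.B i x) * L.h x * L.B j x) := by
  have h0 : ∀ i, EqOn (fun y => ∑ j, gg L.g i j y • pd j L.h y)
      (fun y => FF L i y + ContinuousLinearMap.adjoint (FF L i y)) D := by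
    intro i y hy
    show ∑ j, gg L.g i j y • pd j L.h y = FF L i y + ContinuousLinearMap.adjoint (FF L i y)
    rw [adj_FF hL hy, FF, ← Finset.sum_add_distrib]
    refine Finset.sum_congr rfl fun k _ => ?_
    rw [hL.compat y hy k, smul_add, add_comm]
  have h1 : ∀ i, pd i (fun y => ∑ j, gg L.g i j y • pd j L.h y) x =
      pd i (FF L i) x + ContinuousLinearMap.adjoint (pd i (FF L i) x) := by
    intro i
    rw [hD.pd_congr (h0 i) hx i,
      hD.pd_add (FF_smooth hD hL i) (smooth_adj (FF_smooth hD hL i)) hx i,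
      hD.pd_adj (FF_smooth hD hL i) hx i]
  simp only [h1, Finset.sum_add_distrib]
  rw [← map_sum, div_FF hD hL hx hv, QQ_adj hL hx, ← two_smul ℝ]
  congr 1
  refine Finset.sum_congr rfl fun i _ => ?_
  rw [FF, Finset.mul_sum]
  refine Finset.sum_congr rfl fun k _ => ?_
  rw [mul_smul_comm, mul_assoc]

theorem h_inj (hL : L.Ok D) {x : E n} (hx : x ∈ D) : Function.Injective (L.h x) := by
  refine (injective_iff_map_eq_zero _).2 fun v hv => ?_
  by_contra h0
  have h1 := hL.h_pos x hx v h0
  rw [hv, inner_zero_right] at h1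
  exact lt_irrefl _ h1

theorem h_unit (hL : L.Ok D) {x : E n} (hx : x ∈ D) : IsUnit (L.h x) := by
  have h1 : Function.Bijective ((L.h x : EndF N) : Fib N →ₗ[ℂ] Fib N) :=
    ⟨h_inj hL hx, LinearMap.injective_iff_surjective.1 (h_inj hL hx)⟩
  let e : Fib N ≃ₗ[ℂ] Fib N := LinearEquiv.ofBijective _ h1
  let e' : Fib N ≃L[ℂ] Fib N := e.toContinuousLinearEquiv
  refine ⟨⟨L.h x, (e'.symm : Fib N →L[ℂ] Fib N), ?_, ?_⟩, rfl⟩
  · ext1 v
    show L.h x (e'.symm v) = v
    exact e'.apply_symm_apply v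
  · ext1 v
    show e'.symm (L.h x v) = v
    exact e'.symm_apply_apply v

/-- **(pe)** in the form of the reduced data. -/
theorem peE' (hD : RelOpen D) (hL : L.Ok D) {x : E n} (hx : x ∈ D)
    (hv : ∀ v : Fib N, Lop L (fun _ => v) x = 0) :
    ∑ i, pd i (fun y => ∑ j, gg L.g i j y • pd j L.h y) x =
      (1 / 2 : ℝ) • ∑ i, ∑ j, gg L.g i j x • ((pd i L.h x - gO L i x) * Ring.inverse (L.h x) *
        (pd j L.h x + gO L j x)) := by
  rw [peE hD hL hx hv]
  have e1 : ∀ i, pd i L.h x - gO L i x = (2 : ℝ) • (ContinuousLinearMap.adjoint (L.B i x) * L.h x) := by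
    intro i
    rw [hL.compat x hx i, gO, two_smul]
    abel
  have e2 : ∀ j, pd j L.h x + gO L j x = (2 : ℝ) • (L.h x * L.B j x) := by
    intro j
    rw [hL.compat x hx j, gO, two_smul]
    abel
  have hu := h_unit hL hx
  have e3 : ∀ i j, (pd i L.h x - gO L i x) * Ring.inverse (L.h x) * (pd j L.h x + gO L j x) =
      (4 : ℝ) • (ContinuousLinearMap.adjoint (L.B i x) * L.h x * L.B j x) := by
    intro i j
    rw [e1, e2, smul_mul_assoc, smul_mul_assoc, mul_smul_comm, smul_smul]
    congr 1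
    · norm_num
    · calc ContinuousLinearMap.adjoint (L.B i x) * L.h x * Ring.inverse (L.h x) *
            (L.h x * L.B j x) = ContinuousLinearMap.adjoint (L.B i x) *
              (L.h x * Ring.inverse (L.h x)) * (L.h x * L.B j x) := by
            simp only [mul_assoc]
        _ = _ := by rw [Ring.mul_inverse_cancel _ hu, mul_one, mul_assoc]
  simp only [e3]
  have e4 : ∀ (a : ℝ) (T : EndF N), a • ((4 : ℝ) • T) = (4 : ℝ) • (a • T) := fun a T =>
    smul_comm _ _ _
  simp only [e4, ← Finset.smul_sum]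
  rw [smul_smul]
  congr 1
  norm_num

end Vale.Agent.P088.R2.H509.S4

end
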