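import Vale.Agent.P088.R2.H509.S4.N6
import Vale.Agent.P088.R2.H850.FV

/-!
# P088, stage 4: the transfer property with the fields of helper850
-/

set_option linter.all false

open Bundle Manifold MeasureTheory Set Filter Topology Metric
open scoped ContDiff Matrix

noncomputable section

namespace Vale.Agent.P088.R2.H509.S4

open Vale.Agent.P088 Vale.Agent.P088.EYM Vale.Agent.P088.TM
open Vale.Agent.P088.LR (V MF)
open Vale.Agent.P088.LR.U (MC)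
open Vale.Agent.P088.PJ (TP kp)
open Vale.Agent.P088.HY.T3 (Eb)
open Vale.Agent.P088.S4 (pdv MoV nv StpN)
open Vale.Agent.P088.R2.H509.S3
open Vale.Agent.P088.R2.H850 (FV gE)

universe u

theorem fld_of_fv {n N : ℕ} [NeZero n] {L : LD n N} {z : E n} {r : ℝ} {s : MF n} {P : MC n N}
    {G : Fin n → MC n N} (h : FV L z r s P G) : Fld L z (Eb (0 : V n) r) s P G :=
  ⟨h.s, h.P, fun x hx hx0 i => h.G i x hx hx0⟩

variable {n N : ℕ} [NeZero n] {M₁ M₂ : Type u}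
  [TopologicalSpace M₁] [ChartedSpace (EuclideanHalfSpace n) M₁] [IsManifold (𝓡∂ n) ∞ M₁]
  [TopologicalSpace M₂] [ChartedSpace (EuclideanHalfSpace n) M₂] [IsManifold (𝓡∂ n) ∞ M₂]
  [MeasurableSpace M₁] [MeasurableSpace M₂]
  {P : One n N M₁} {Q : One n N M₂} {G : Gl M₁ M₂} {e₁ : E n → M₁} {e₂ : E n → M₂}
  {L₁ L₂ : LD n N} {D₀ : Set (E n)}
  [T2Space M₁] [CompactSpace M₁] [ConnectedSpace M₁] [BorelSpace M₁]
  [T2Space M₂] [CompactSpace M₂] [ConnectedSpace M₂] [BorelSpace M₂]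

/-- **ST4b** -/
theorem st4bV (hP : PC P Q G e₁ e₂ L₁ L₂ D₀) (hG : G.Ok n N) (hS : SameD P Q G)
    {z : E n} {r₀ r : ℝ} {j0 : Fin N} {W₁ W₂ : Model n N} {D₁ D₂ : Set (E n)}
    {X₁ Y₁ X₂ Y₂ : E n → E n} {S₁ S₂ : E n → EndF N}
    {s : Fin N → (M₁ → Fib N) × (M₂ → Fib N)} {t : Fin n → (M₁ → Fib N) × (M₂ → Fib N)}
    (hs : ∀ j, s j ∈ PP P Q G) (ht : ∀ a, t a ∈ PP P Q G)
    (h₁ : BdM e₁ L₁ D₀ z r₀ j0 W₁ D₁ X₁ Y₁ S₁ (fun j => (s j).1) (fun a => (t a).1))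
    (h₂ : BdM e₂ L₂ D₀ z r₀ j0 W₂ D₂ X₂ Y₂ S₂ (fun j => (s j).2) (fun a => (t a).2))
    (hr : 0 < r) (hrr : r < r₀) {s₁ s₂ : MF n} {P₁ P₂ : MC n N} {G₁ G₂ : Fin n → MC n N}
    (F₁ : FV W₁.toLD z r s₁ P₁ G₁) (F₂ : FV W₂.toLD z r s₂ P₂ G₂) :
    StpN (Eb (0 : V n) r) {x | x 0 < 0} (TP s₁ P₁) (kp s₁ G₁) (TP s₂ P₂) (kp s₂ G₂) :=
  st4b hP hG hS hs ht h₁ h₂ hr hrr (fld_of_fv F₁) (fld_of_fv F₂)

end Vale.Agent.P088.R2.H509.S4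

end
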